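import Crest.Agent.R165.B3.Lim

/-! # R165 block B3: a priori bounds for type P geometries, kernels
(OWNER fills the sorries; statements FROZEN, add lemmas freely). Recipes: notes165/route.md §B. -/

set_option autoImplicit false
noncomputable section
open Classical

namespace Crest.Agent.R165

/-- discrete uniqueness -/
theorem sol_unique {E : Finset Edge} {ρ : ℝ} (hE : Reg ↑E ρ) (S : Finset Site) {s : Fn}
    (hs : SolOn (wOf ↑E S) Set.univ s) (hf : (Function.support s).Finite) : s = 0 := by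
  exact B3.sol_unique' E S hs hf

theorem exists_ker {E : Finset Edge} {ρ : ℝ} (hE : Reg ↑E ρ) (S : Finset Site) :
    ∃ g, IsKer (wOf ↑E S) g ∧ FinRow g := by
  exact B3.exists_ker' E S

/-- **a priori bound from a plain bound on a frame** (universal constant) -/
theorem apriori_sup : ∃ (C : ℝ) (K : ℕ), ∀ (E : Set Edge) (ρ : ℝ) (S : Finset Site) (x : Site) (l : ℕ) (s : Fn) (M : ℝ),
    Reg E ρ → K ≤ l → (K * l : ℝ) ≤ ρ → SolOn (wOf E S) (box x (4 * l)) s → SB (frame x l (4 * l)) M s →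
    WB S (box x (2 * l)) l (C * M) s := by
  exact B3.apriori_sup'

/-- a priori bound from a weighted bound on a frame -/
theorem apriori_wb (n : ℕ) : ∃ (C : ℝ) (K : ℕ), ∀ (E : Set Edge) (ρ : ℝ) (S : Finset Site) (x : Site) (l : ℕ) (s : Fn)
    (M : ℝ), Reg E ρ → S.card ≤ n → K ≤ l → (K * l : ℝ) ≤ ρ → SolOn (wOf E S) (box x (4 * l)) s →
    WB S (frame x l (4 * l)) l M s → WB S (box x (2 * l)) l (C * M) s := by
  exact B3.apriori_wb' n

/-- **barrier**: next to the boundary `H` is of the order of the distance, and `s² ≲ osc H / r` up to the boundary -/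
theorem barrier : ∃ (C : ℝ) (K : ℕ), ∀ (E : Set Edge) (ρ : ℝ) (S : Finset Site) (b : Site) (r : ℕ) (s : Fn)
    (Hw Hb : Site → ℝ) (δ : ℝ), Reg E ρ → K ≤ r → (K * r : ℝ) ≤ ρ → (∀ v ∈ S, v ∉ box b (4 * r)) →
    SolOn (wOf E S) (box b (4 * r)) s → IsH (wOf E S) s (box b (4 * r)) Hw Hb →
    (∀ b' ∈ box b (3 * r), FrozenB E b' → Hb b' = 0) → (∀ x ∈ box b (3 * r), |Hw x| ≤ δ) →
    (∀ x ∈ box b r, ∀ α, s (x, α) ^ 2 ≤ C * δ / r) ∧
    ∀ x ∈ box b r, ∀ b' ∈ box b r, FrozenB E b' → |Hw x| ≤ C * δ * (supd x b' + 1) / r := by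
  obtain ⟨C, K, -, hK, h⟩ := B3.barrier'
  refine ⟨C, K, fun E ρ S b r s Hw Hb δ hE hr hρ => h E ρ S b r s Hw Hb δ hE hr (le_trans ?_ hρ)⟩
  have : (1 : ℝ) ≤ K := by exact_mod_cast hK
  nlinarith [Nat.cast_nonneg (α := ℝ) r]

/-- **universal kernel bound** -/
theorem ker_bound (n : ℕ) : ∃ (C : ℝ) (K : ℕ), ∀ (E : Finset Edge) (ρ : ℝ) (S : Finset Site) (g : HE → HE → ℝ),
    Reg ↑E ρ → S.card ≤ n → IsKer (wOf ↑E S) g → FinRow g → ∀ (l : ℕ) (i j : HE), 1 ≤ l → (K * (l + K) : ℝ) ≤ ρ →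
    l ≤ supd i.1 j.1 + 1 → g i j ^ 2 * (dB S l i.1 * dB S l j.1) ≤ C ^ 2 := by
  obtain ⟨C, K, h⟩ := B3.ker_bound' n
  exact ⟨C, K, fun E ρ S g hE hS hg _ => h E ρ S g hE hS hg⟩

/-- kernels of geometries that exhaust the plane converge to the plane kernel -/
theorem ker_tendsto_gPl (E : ℕ → Finset Edge) (ρ : ℕ → ℝ) (g : ℕ → HE → HE → ℝ) (hρ : Filter.Tendsto ρ Filter.atTop Filter.atTop)
    (hE : ∀ k, Reg ↑(E k) (ρ k)) (hg : ∀ k, IsKer (wOf ↑(E k) ∅) (g k) ∧ FinRow (g k))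
    (hex : ∀ e, ∀ᶠ k in Filter.atTop, e ∈ E k) (i j : HE) :
    Filter.Tendsto (fun k => g k i j) Filter.atTop (nhds (gPl i j)) := by
  exact B3.ker_tendsto_gPl' E ρ g hρ hE (fun k => (hg k).1) hex i j

/-- the one-branch kernel (spin at the black site `0`): a limit point of kernels of discs -/
theorem exists_gBr : ∃ (g : HE → HE → ℝ) (C : ℝ), IsKer (wOf Set.univ {0}) g ∧
    ∀ (l : ℕ) (i j : HE), 1 ≤ l → l ≤ supd i.1 j.1 + 1 → g i j ^ 2 * (dB {0} l i.1 * dB {0} l j.1) ≤ C ^ 2 := by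
  exact B3.exists_gBr'

def gBr : HE → HE → ℝ := exists_gBr.choose

end Crest.Agent.R165
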