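import Crest.Agent.R165.B.Pot2b

/-! # R165/B2, part 4b: `L¹` gradient bound -/

set_option autoImplicit false
noncomputable section
open Classical

namespace Crest.Agent.R165

/-- induction on `n`: the shell `box z (n+1) \ box z n` has `8 (n+1)` points (`card_box`, `Finset.sum_sdiff`) -/
theorem sum_inv_supd_self (z : Site) (n : ℕ) : ∑ y ∈ box z n, 1 / ((supd y z : ℝ) + 1) ≤ 8 * n + 1 := by
  induction n with
  | zero =>
    refine (Finset.sum_le_card_nsmul _ _ 1 fun y _ => ?_).trans (by rw [card_box]; simp)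
    rw [div_le_one (by positivity)]
    linarith [Nat.cast_nonneg (α := ℝ) (supd y z)]
  | succ n ih =>
    rw [← Finset.sum_sdiff (box_mono z n.le_succ)]
    have h1 : ∑ y ∈ box z (n + 1) \ box z n, 1 / ((supd y z : ℝ) + 1) ≤ 8 := by
      refine (Finset.sum_le_card_nsmul _ _ (1 / ((n : ℝ) + 1)) fun y hy => ?_).trans ?_
      · rw [Finset.mem_sdiff, mem_box_supd, mem_box_supd] at hy
        have : (n : ℝ) ≤ supd y z := by exact_mod_cast (by omega : n ≤ supd y z)
        gcongr
      · rw [Finset.card_sdiff_of_subset (box_mono z n.le_succ), card_box, card_box,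
          show (2 * (n + 1) + 1) ^ 2 - (2 * n + 1) ^ 2 = 8 * (n + 1) from Nat.sub_eq_of_eq_add (by ring), nsmul_eq_mul]
        push_cast
        rw [mul_one_div, mul_div_assoc, div_self (by positivity), mul_one]
    push_cast
    linarith

/-- `supd x z ≤ 2R`: `box x R ⊆ box z (3R)`; else every term is `≤ 1 / R` -/
theorem sum_inv_supd (x z : Site) {R : ℕ} (hR : 1 ≤ R) : ∑ y ∈ box x R, 1 / ((supd y z : ℝ) + 1) ≤ 25 * R := by
  have hR0 : (1 : ℝ) ≤ R := by exact_mod_cast hR
  by_cases h : supd x z ≤ 2 * R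
  · refine (Finset.sum_le_sum_of_subset_of_nonneg (box_subset_box (N := 3 * R) (mem_box_supd.2 h) (by omega))
      fun _ _ _ => by positivity).trans ((sum_inv_supd_self z _).trans ?_)
    push_cast
    linarith
  · refine (Finset.sum_le_card_nsmul _ _ (1 / (R : ℝ)) fun y hy => ?_).trans ?_
    · rw [mem_box_supd, supd_comm] at hy
      have := supd_triangle x y z
      have : (R : ℝ) ≤ supd y z + 1 := by exact_mod_cast (by omega : R ≤ supd y z + 1)
      gcongr
    · rw [card_box, nsmul_eq_mul, mul_one_div, div_le_iff₀ (by positivity)]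
      push_cast
      nlinarith

/-- `u = a * lap u`: `lap_green` with `φ = u` and the function `z ↦ a (z - y)`, on a box that also contains `y` -/
theorem repr_pot {a : Site → ℝ} (ha : ∀ x, lap a x = if x = 0 then 1 else 0) {u : Site → ℝ}
    (hu : (Function.support u).Finite) : (Function.support (lap u)).Finite ∧ ∀ y, u y = ∑ᶠ z, lap u z * a (z - y) := by
  have ex : ∀ y, ∃ N, y ∈ box 0 N ∧ (∀ z, z ∉ box 0 N → u z = 0) ∧ Function.support (lap u) ⊆ box 0 (N + 1) := fun y => by
    obtain ⟨N, hN⟩ := ((hu.insert y).image fun z => supd z 0).bddAbove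
    have h1 : ∀ z, z ∉ box 0 N → u z = 0 := fun z hz => by_contra fun h =>
      hz (mem_box_supd.2 (hN ⟨z, Set.mem_insert_of_mem _ h, rfl⟩))
    refine ⟨N, mem_box_supd.2 (hN ⟨y, Set.mem_insert _ _, rfl⟩), h1, fun z hz => by_contra fun hn => hz ?_⟩
    refine Finset.sum_eq_zero fun α _ => ?_
    rw [h1 z fun h => hn (box_mono _ N.le_succ h), h1 (z + dv α) fun h => hn ?_, sub_zero]
    have := add_dv_mem_box' h (α + 2)
    rwa [dv_add_two, add_neg_cancel_right] at this
  refine ⟨?_, fun y => ?_⟩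
  · obtain ⟨N, -, -, h⟩ := ex 0
    exact (Finset.finite_toSet _).subset h
  · obtain ⟨N, h0, h1, h2⟩ := ex y
    have g := lap_green u (fun z => a (z + -y)) 0 N h1
    simp only [lap_shift, ha, add_neg_eq_zero, mul_ite, mul_one, mul_zero, Finset.sum_ite_eq', if_pos h0] at g
    rw [finsum_eq_sum_of_support_subset _ ((Function.support_mul_subset_left _ _).trans h2), g]
    simp only [sub_eq_add_neg]

/-- `L¹` gradient bound from the total mass of the Laplacian -/
theorem grad_L1 : ∃ C : ℝ, ∀ (u : Site → ℝ) (_ : (Function.support u).Finite) (x : Site) (R : ℕ), 1 ≤ R →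
    ∑ y ∈ box x R, ∑ α : Fin 4, |u (y + dv α) - u y| ≤ C * R * ∑ᶠ y, |lap u y| := by
  obtain ⟨a, C, ha, -, hd⟩ := exists_potKer
  have hC : 0 ≤ C := by
    have := (abs_nonneg _).trans (hd 0 0)
    rwa [supd_self, Nat.cast_zero, zero_add, div_one] at this
  refine ⟨100 * C, fun u hu x R hR => ?_⟩
  obtain ⟨hf, hr⟩ := repr_pot ha hu
  have hr' : ∀ y, u y = ∑ z ∈ hf.toFinset, lap u z * a (z - y) := fun y => by
    rw [hr y, finsum_eq_sum_of_support_subset (s := hf.toFinset) _ ((Function.support_mul_subset_left _ _).trans (by simp))]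
  rw [finsum_eq_sum_of_support_subset (s := hf.toFinset) _ (fun z hz => by simpa using hz)]
  have h1 : ∀ y α, |u (y + dv α) - u y| ≤ ∑ z ∈ hf.toFinset, |lap u z| * C * (1 / ((supd y z : ℝ) + 1)) := fun y α => by
    rw [hr' y, hr' (y + dv α), ← Finset.sum_sub_distrib]
    refine (Finset.abs_sum_le_sum_abs _ _).trans (Finset.sum_le_sum fun z _ => ?_)
    rw [← mul_sub, abs_mul, mul_assoc, mul_one_div]
    refine mul_le_mul_of_nonneg_left ?_ (abs_nonneg _)
    have := hd (z - y) (α + 2)
    rwa [dv_add_two, supd_sub, supd_comm, ← sub_eq_add_neg, sub_sub] at this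
  calc _ ≤ ∑ y ∈ box x R, ∑ α : Fin 4, ∑ z ∈ hf.toFinset, |lap u z| * C * (1 / ((supd y z : ℝ) + 1)) :=
        Finset.sum_le_sum fun y _ => Finset.sum_le_sum fun α _ => h1 y α
    _ = ∑ z ∈ hf.toFinset, 4 * (|lap u z| * C) * ∑ y ∈ box x R, (1 / ((supd y z : ℝ) + 1)) := by
        simp only [Finset.sum_const, Finset.card_univ, Fintype.card_fin, nsmul_eq_mul, Finset.mul_sum]
        rw [Finset.sum_comm]
        refine Finset.sum_congr rfl fun _ _ => Finset.sum_congr rfl fun _ _ => ?_
        push_cast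
        ring
    _ ≤ ∑ z ∈ hf.toFinset, 4 * (|lap u z| * C) * (25 * R) :=
        Finset.sum_le_sum fun z _ => mul_le_mul_of_nonneg_left (sum_inv_supd x z hR) (by positivity)
    _ = _ := by
        rw [Finset.mul_sum]
        exact Finset.sum_congr rfl fun _ _ => by ring

end Crest.Agent.R165
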