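import Crest.Agent.R165.B.Pot0

/-! # R165/B2, part 5: Poincaré inequalities -/

set_option autoImplicit false
noncomputable section
open Classical

namespace Crest.Agent.R165

/-- `G y = ∑ α, if y + dv α ∈ W then |u (y + dv α) - u y| else 0` for `y ∈ W` (`0` otherwise), `Row t = ∑ k ∈ Icc, G (k, t)`,
`Col s = ∑ k ∈ Icc, G (s, k)`; `∑ Row = ∑ Col = ∑_W G`.  Pick `s₀ ∈ S`, `t₀ ∈ T` minimising `Col`, `Row` (`m * Col s₀ ≤ ∑ G`), `c = u (s₀, t₀)`.
By `abs_sub_le_sum`, `|u y - c| ≤ Row y.2 + Col s₀` (full row) or `≤ Col y.1 + Row t₀` (full column). -/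
theorem poincare_gen (u : Site → ℝ) (x : Site) (R : ℕ) (W : Finset Site) (hW : W ⊆ box x R) (S T : Finset ℤ) (m : ℕ)
    (hm : 0 < m) (hS : m ≤ S.card) (hT : m ≤ T.card)
    (hSI : S ⊆ Finset.Icc (x.1 - R) (x.1 + R)) (hTI : T ⊆ Finset.Icc (x.2 - R) (x.2 + R))
    (hS' : ∀ s ∈ S, ∀ k ∈ Finset.Icc (x.2 - R) (x.2 + R), (s, k) ∈ W)
    (hT' : ∀ t ∈ T, ∀ k ∈ Finset.Icc (x.1 - R) (x.1 + R), (k, t) ∈ W)
    (hW' : ∀ y ∈ W, y.1 ∈ S ∨ y.2 ∈ T) :
    ∃ c : ℝ, ∑ y ∈ W, |u y - c| ≤ 2 * ((2 * R + 1) + (2 * R + 1) ^ 2 / m) * ∑ y ∈ W, ∑ α : Fin 4,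
      if y + dv α ∈ W then |u (y + dv α) - u y| else 0 := by
  set I := Finset.Icc (x.1 - R) (x.1 + R) with hI
  set J := Finset.Icc (x.2 - R) (x.2 + R) with hJ
  set E : Site → Fin 4 → ℝ := fun y α => if y + dv α ∈ W then |u (y + dv α) - u y| else 0 with hE
  have E0 : ∀ y α, 0 ≤ E y α := fun y α => by simp only [hE]; split_ifs <;> positivity
  set G : Site → ℝ := fun y => if y ∈ W then ∑ α, E y α else 0 with hG
  have G0 : ∀ y, 0 ≤ G y := fun y => by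
    simp only [hG]; split_ifs
    exacts [Finset.sum_nonneg fun α _ => E0 y α, le_rfl]
  have GE : ∀ y α, y ∈ W → y + dv α ∈ W → |u (y + dv α) - u y| ≤ G y := fun y α h1 h2 => by
    simp only [hG, if_pos h1]
    refine le_trans (le_of_eq ?_) (Finset.single_le_sum (fun β _ => E0 y β) (Finset.mem_univ α))
    simp only [hE, if_pos h2]
  change ∃ c : ℝ, _ ≤ _ * ∑ y ∈ W, ∑ α, E y α
  set Tot := ∑ y ∈ W, ∑ α, E y α with hTot
  set Col : ℤ → ℝ := fun s => ∑ k ∈ J, G (s, k) with hCol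
  set Row : ℤ → ℝ := fun t => ∑ k ∈ I, G (k, t) with hRow
  have C0 : ∀ s, 0 ≤ Col s := fun s => Finset.sum_nonneg fun _ _ => G0 _
  have R0 : ∀ s, 0 ≤ Row s := fun s => Finset.sum_nonneg fun _ _ => G0 _
  have hbox : ∑ y ∈ I ×ˢ J, G y = Tot := by
    rw [hTot, ← Finset.sum_subset (s₂ := I ×ˢ J) hW fun y _ hy => if_neg hy]
    exact Finset.sum_congr rfl fun y hy => if_pos hy
  have sC : ∑ s ∈ I, Col s = Tot := by rw [← hbox, Finset.sum_product]
  have sR : ∑ t ∈ J, Row t = Tot := by rw [← hbox, Finset.sum_product_right]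
  have T0 : 0 ≤ Tot := sC ▸ Finset.sum_nonneg fun _ _ => C0 _
  have fC : ∀ s ∈ S, ∀ k ∈ J, ∀ l ∈ J, |u (s, k) - u (s, l)| ≤ Col s := fun s hs k hk l hl => by
    refine (abs_sub_le_sum (fun k => u (s, k)) hk hl).trans ((Finset.sum_le_sum fun j hj => ?_).trans
      (Finset.sum_le_sum_of_subset_of_nonneg Finset.Ico_subset_Icc_self fun _ _ _ => G0 _))
    rw [Finset.mem_Ico] at hj
    have := GE (s, j) 1 (hS' s hs j (Finset.mem_Icc.2 (by omega)))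
      (by rw [add_dv1]; exact hS' s hs _ (Finset.mem_Icc.2 (by simp only; omega)))
    rwa [add_dv1] at this
  have fR : ∀ t ∈ T, ∀ k ∈ I, ∀ l ∈ I, |u (k, t) - u (l, t)| ≤ Row t := fun t ht k hk l hl => by
    refine (abs_sub_le_sum (fun k => u (k, t)) hk hl).trans ((Finset.sum_le_sum fun j hj => ?_).trans
      (Finset.sum_le_sum_of_subset_of_nonneg Finset.Ico_subset_Icc_self fun _ _ _ => G0 _))
    rw [Finset.mem_Ico] at hj
    have := GE (j, t) 0 (hT' t ht j (Finset.mem_Icc.2 (by omega)))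
      (by rw [add_dv0]; exact hT' t ht _ (Finset.mem_Icc.2 (by simp only; omega)))
    rwa [add_dv0] at this
  have hm0 : (0 : ℝ) < m := by exact_mod_cast hm
  have mn : ∀ (A B : Finset ℤ) (F : ℤ → ℝ), m ≤ A.card → A ⊆ B → (∀ s, 0 ≤ F s) → ∑ s ∈ B, F s = Tot →
      ∃ s ∈ A, F s ≤ Tot / m := fun A B F h1 h2 h3 h4 => by
    obtain ⟨s, hs, hmin⟩ := A.exists_min_image F (Finset.card_pos.1 (by omega))
    refine ⟨s, hs, ?_⟩
    have e1 := Finset.card_nsmul_le_sum A F (F s) hmin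
    have e2 := Finset.sum_le_sum_of_subset_of_nonneg h2 fun i _ _ => h3 i
    have e3 : (m : ℝ) ≤ A.card := by exact_mod_cast h1
    rw [nsmul_eq_mul] at e1
    rw [le_div_iff₀ hm0]
    nlinarith [h3 s]
  obtain ⟨s₀, hs₀, ms⟩ := mn S I Col hS hSI C0 sC
  obtain ⟨t₀, ht₀, mt⟩ := mn T J Row hT hTI R0 sR
  refine ⟨u (s₀, t₀), ?_⟩
  have pt : ∀ y ∈ W, |u y - u (s₀, t₀)| ≤ Col y.1 + Row y.2 + Tot / m := fun y hy => by
    obtain ⟨y1, y2⟩ := y
    obtain ⟨h1, h2⟩ := Finset.mem_product.1 (hW hy)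
    rcases hW' _ hy with h | h
    · linarith [abs_sub_le (u (y1, y2)) (u (y1, t₀)) (u (s₀, t₀)), fC y1 h y2 h2 t₀ (hTI ht₀),
        fR t₀ ht₀ y1 h1 s₀ (hSI hs₀), R0 y2]
    · linarith [abs_sub_le (u (y1, y2)) (u (s₀, y2)) (u (s₀, t₀)), fR y2 h y1 h1 s₀ (hSI hs₀),
        fC s₀ hs₀ y2 h2 t₀ (hTI ht₀), C0 y1]
  have cI : (I.card : ℝ) = 2 * R + 1 := by
    rw [hI, Int.card_Icc, show (x.1 + R + 1 - (x.1 - R)).toNat = 2 * R + 1 by omega]
    push_cast; rfl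
  have cJ : (J.card : ℝ) = 2 * R + 1 := by
    rw [hJ, Int.card_Icc, show (x.2 + R + 1 - (x.2 - R)).toNat = 2 * R + 1 by omega]
    push_cast; rfl
  refine (Finset.sum_le_sum pt).trans ((Finset.sum_le_sum_of_subset_of_nonneg (t := I ×ˢ J) hW fun y _ _ =>
    add_nonneg (add_nonneg (C0 _) (R0 _)) (div_nonneg T0 hm0.le)).trans ?_)
  rw [Finset.sum_add_distrib, Finset.sum_add_distrib, Finset.sum_product, Finset.sum_product_right (f := fun y => Row y.2)]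
  simp only [Finset.sum_const, nsmul_eq_mul, Finset.card_product, Nat.cast_mul, cI, cJ, ← Finset.mul_sum, sC, sR]
  have : 0 ≤ (2 * (R : ℝ) + 1) ^ 2 / m * Tot := by positivity
  have e : (2 * (R : ℝ) + 1) * (2 * R + 1) * (Tot / m) = (2 * (R : ℝ) + 1) ^ 2 / m * Tot := by ring
  rw [e]
  linarith

/-- `L¹` Poincaré inequality on a box and on a frame -/
theorem poincare_box : ∃ C : ℝ, ∀ (u : Site → ℝ) (x : Site) (R : ℕ), ∃ c : ℝ,
    ∑ y ∈ box x R, |u y - c| ≤ C * (R + 1) * ∑ y ∈ box x R, ∑ α : Fin 4,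
      if y + dv α ∈ box x R then |u (y + dv α) - u y| else 0 := by
  refine ⟨8, fun u x R => ?_⟩
  obtain ⟨c, hc⟩ := poincare_gen u x R (box x R) subset_rfl (Finset.Icc (x.1 - R) (x.1 + R))
    (Finset.Icc (x.2 - R) (x.2 + R)) (2 * R + 1) (by omega) (by rw [Int.card_Icc]; omega) (by rw [Int.card_Icc]; omega)
    subset_rfl subset_rfl (fun s hs k hk => Finset.mem_product.2 ⟨hs, hk⟩) (fun s hs k hk => Finset.mem_product.2 ⟨hk, hs⟩)
    fun y hy => Or.inl (Finset.mem_product.1 hy).1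
  refine ⟨c, hc.trans (mul_le_mul_of_nonneg_right ?_ (Finset.sum_nonneg fun _ _ => Finset.sum_nonneg fun _ _ => by
    split_ifs <;> positivity))⟩
  push_cast
  rw [sq, mul_div_assoc, div_self (by positivity)]
  linarith

/-- `r = 0`: empty.  Else `S`, `T` = the coordinates at distance in `(r, R]` from the centre, `m = R - r ≥ R / 2`. -/
theorem poincare_frame : ∃ C : ℝ, ∀ (u : Site → ℝ) (x : Site) (r R : ℕ), 2 * r ≤ R → R ≤ 8 * r → ∃ c : ℝ,
    ∑ y ∈ frame x r R, |u y - c| ≤ C * (R + 1) * ∑ y ∈ frame x r R, ∑ α : Fin 4,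
      if y + dv α ∈ frame x r R then |u (y + dv α) - u y| else 0 := by
  refine ⟨40, fun u x r R h1 h2 => ?_⟩
  rcases Nat.eq_zero_or_pos r with rfl | hr
  · obtain rfl : R = 0 := by omega
    exact ⟨0, by simp [frame]⟩
  have mf : ∀ y, y ∈ frame x r R ↔ (x.1 - R ≤ y.1 ∧ y.1 ≤ x.1 + R ∧ x.2 - R ≤ y.2 ∧ y.2 ≤ x.2 + R) ∧
      ¬(x.1 - r ≤ y.1 ∧ y.1 ≤ x.1 + r ∧ x.2 - r ≤ y.2 ∧ y.2 ≤ x.2 + r) := fun y => by
    rw [frame, Finset.mem_sdiff, mem_box', mem_box']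
  have cd : ∀ a : ℤ, R - r ≤ (Finset.Icc (a - R) (a + R) \ Finset.Icc (a - r) (a + r)).card := fun a => by
    refine le_trans ?_ (Finset.le_card_sdiff _ _)
    rw [Int.card_Icc, Int.card_Icc]
    omega
  obtain ⟨c, hc⟩ := poincare_gen u x R (frame x r R) Finset.sdiff_subset
    (Finset.Icc (x.1 - R) (x.1 + R) \ Finset.Icc (x.1 - r) (x.1 + r))
    (Finset.Icc (x.2 - R) (x.2 + R) \ Finset.Icc (x.2 - r) (x.2 + r)) (R - r) (by omega) (cd _) (cd _)
    Finset.sdiff_subset Finset.sdiff_subset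
    (fun s hs k hk => by
      simp only [mf, Finset.mem_sdiff, Finset.mem_Icc] at hs hk ⊢
      omega)
    (fun s hs k hk => by
      simp only [mf, Finset.mem_sdiff, Finset.mem_Icc] at hs hk ⊢
      omega)
    fun y hy => by
      simp only [mf, Finset.mem_sdiff, Finset.mem_Icc] at hy ⊢
      omega
  refine ⟨c, hc.trans (mul_le_mul_of_nonneg_right ?_ (Finset.sum_nonneg fun _ _ => Finset.sum_nonneg fun _ _ => by
    split_ifs <;> positivity))⟩
  have e1 : (R : ℝ) ≤ 2 * ((R - r : ℕ) : ℝ) := by exact_mod_cast (by omega : R ≤ 2 * (R - r))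
  have e2 : (1 : ℝ) ≤ R := by exact_mod_cast (by omega : 1 ≤ R)
  have e3 : (2 * (R : ℝ) + 1) ^ 2 / ((R - r : ℕ) : ℝ) ≤ 18 * R := by
    rw [div_le_iff₀ (by linarith)]
    nlinarith
  linarith

end Crest.Agent.R165
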