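import Crest.Agent.R165.B.Pot0

/-! # R165/B2, part 6: spreading of positivity -/

set_option autoImplicit false
noncomputable section
open Classical

namespace Crest.Agent.R165

/-- squared Euclidean distance -/
def rho2 (z y : Site) : ℝ := ((y.1 : ℝ) - z.1) ^ 2 + ((y.2 : ℝ) - z.2) ^ 2

theorem lap_rho2 (z y : Site) : lap (rho2 z) y = 4 := by
  simp only [lap_eq, rho2]; push_cast; ring

theorem rho2_bd (z y : Site) : (supd y z : ℝ) ^ 2 ≤ rho2 z y ∧ rho2 z y ≤ 2 * (supd y z : ℝ) ^ 2 := by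
  obtain ⟨p, hp⟩ : ∃ p : ℤ, p = y.1 - z.1 := ⟨_, rfl⟩
  obtain ⟨q, hq⟩ : ∃ q : ℤ, q = y.2 - z.2 := ⟨_, rfl⟩
  have e : rho2 z y = ((p.natAbs ^ 2 + q.natAbs ^ 2 : ℕ) : ℝ) := by
    rw [← Int.cast_natCast]; push_cast; simp only [sq_abs, rho2, hp, hq]; push_cast; rfl
  rw [e, supd, ← hp, ← hq]
  generalize p.natAbs = a
  generalize q.natAbs = b
  have h : max a b ^ 2 ≤ a ^ 2 + b ^ 2 ∧ a ^ 2 + b ^ 2 ≤ 2 * max a b ^ 2 := by
    rcases le_total a b with h | h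
    · rw [max_eq_right h]; constructor <;> nlinarith
    · rw [max_eq_left h]; constructor <;> nlinarith
  exact_mod_cast h

/-- the barrier `1 / |y - z|²`, `4` at the centre -/
def invB (z y : Site) : ℝ := if y = z then 4 else 1 / rho2 z y

theorem pot6_ineq (p q : ℝ) (h0 : 1 ≤ p ^ 2 + q ^ 2) (h1 : 1 ≤ (p + 1) ^ 2 + q ^ 2) (h2 : 1 ≤ p ^ 2 + (q + 1) ^ 2)
    (h3 : 1 ≤ (p - 1) ^ 2 + q ^ 2) (h4 : 1 ≤ p ^ 2 + (q - 1) ^ 2) :
    0 ≤ 1 / ((p + 1) ^ 2 + q ^ 2) + 1 / (p ^ 2 + (q + 1) ^ 2) + 1 / ((p - 1) ^ 2 + q ^ 2) + 1 / (p ^ 2 + (q - 1) ^ 2) -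
      4 * (1 / (p ^ 2 + q ^ 2)) := by
  obtain ⟨ρ, hρ⟩ : ∃ ρ, ρ = p ^ 2 + q ^ 2 := ⟨_, rfl⟩
  have pair : ∀ a b : ℝ, 1 ≤ a → 1 ≤ b → a + b = 2 * (ρ + 1) → 1 / a + 1 / b = 2 * (ρ + 1) * (1 / (a * b)) :=
    fun a b ha hb h => by rw [← h]; field_simp; ring
  have e1 := pair _ _ h1 h3 (by rw [hρ]; ring)
  have e2 := pair _ _ h2 h4 (by rw [hρ]; ring)
  have hs : ((p + 1) ^ 2 + q ^ 2) * ((p - 1) ^ 2 + q ^ 2) + (p ^ 2 + (q + 1) ^ 2) * (p ^ 2 + (q - 1) ^ 2) =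
      2 * (ρ ^ 2 + 1) := by rw [hρ]; ring
  have hA : 0 < ((p + 1) ^ 2 + q ^ 2) * ((p - 1) ^ 2 + q ^ 2) := mul_pos (by linarith) (by linarith)
  have hB : 0 < (p ^ 2 + (q + 1) ^ 2) * (p ^ 2 + (q - 1) ^ 2) := mul_pos (by linarith) (by linarith)
  generalize ((p + 1) ^ 2 + q ^ 2) * ((p - 1) ^ 2 + q ^ 2) = A at *
  generalize (p ^ 2 + (q + 1) ^ 2) * (p ^ 2 + (q - 1) ^ 2) = B at *
  rw [← hρ] at h0 ⊢
  have h5 : 2 / (ρ ^ 2 + 1) ≤ 1 / A + 1 / B := by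
    rw [div_add_div _ _ hA.ne' hB.ne', div_le_div_iff₀ (by positivity) (by positivity)]
    have : ρ ^ 2 + 1 = (A + B) / 2 := by linarith
    rw [this]; nlinarith [sq_nonneg (A - B)]
  have h6 : 1 / ρ ≤ (ρ + 1) / (ρ ^ 2 + 1) := by
    rw [div_le_div_iff₀ (by linarith) (by positivity)]; nlinarith
  have h7 := mul_le_mul_of_nonneg_left h5 (show 0 ≤ 2 * (ρ + 1) by linarith)
  have h8 : 2 * (ρ + 1) * (2 / (ρ ^ 2 + 1)) = 4 * ((ρ + 1) / (ρ ^ 2 + 1)) := by ring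
  linarith


/-- the four neighbours of `z` by hand (`4 + 1/4 + 1/2 + 1/2 ≥ 4`); else with `p, q` the coordinates of `y - z`, `ρ = p² + q² ≥ 2`,
`σ = ρ + 1`: `lap = 2σ/(σ² - 4p²) + 2σ/(σ² - 4q²) - 4/ρ`, `1/A + 1/B ≥ 4/(A + B)`, `A + B = 2(ρ² + 1)`, `σ/(ρ² + 1) ≥ 1/ρ` -/
theorem lap_invB {z y : Site} (h : y ≠ z) : 0 ≤ lap (invB z) y := by
  obtain ⟨a, b⟩ := z
  obtain ⟨c, d⟩ := y
  obtain ⟨p, rfl⟩ : ∃ p, c = a + p := ⟨c - a, by ring⟩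
  obtain ⟨q, rfl⟩ : ∃ q, d = b + q := ⟨d - b, by ring⟩
  have e : ∀ p q : ℤ, invB (a, b) (a + p, b + q) = if p = 0 ∧ q = 0 then 4 else 1 / ((p : ℝ) ^ 2 + (q : ℝ) ^ 2) :=
    fun p q => by simp [invB, rho2]
  have h0 : ¬ (p = 0 ∧ q = 0) := by simpa using h
  simp only [lap_eq, add_assoc a, add_assoc b, add_sub_assoc a, add_sub_assoc b, e]
  by_cases h1 : p.natAbs + q.natAbs = 1
  · rcases (by omega : p = 1 ∧ q = 0 ∨ p = -1 ∧ q = 0 ∨ p = 0 ∧ q = 1 ∨ p = 0 ∧ q = -1) with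
      ⟨rfl, rfl⟩ | ⟨rfl, rfl⟩ | ⟨rfl, rfl⟩ | ⟨rfl, rfl⟩ <;> norm_num
  have pos : ∀ p q : ℤ, ¬ (p = 0 ∧ q = 0) → (1 : ℝ) ≤ (p : ℝ) ^ 2 + (q : ℝ) ^ 2 := fun p q h => by
    have : 1 ≤ p ^ 2 + q ^ 2 := by
      rcases (by omega : 1 ≤ p ∨ p ≤ -1 ∨ 1 ≤ q ∨ q ≤ -1) with h | h | h | h <;> nlinarith [sq_nonneg p, sq_nonneg q]
    exact_mod_cast this
  have n1 : ¬ (p + 1 = 0 ∧ q = 0) := by omega
  have n2 : ¬ (p = 0 ∧ q + 1 = 0) := by omega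
  have n3 : ¬ (p - 1 = 0 ∧ q = 0) := by omega
  have n4 : ¬ (p = 0 ∧ q - 1 = 0) := by omega
  rw [if_neg h0, if_neg n1, if_neg n2, if_neg n3, if_neg n4]
  have p0 := pos _ _ h0
  have p1 := pos _ _ n1
  have p2 := pos _ _ n2
  have p3 := pos _ _ n3
  have p4 := pos _ _ n4
  push_cast at *
  exact pot6_ineq _ _ p0 p1 p2 p3 p4

/-- `max_principle` on `box z (2L) \ box z r` for `κ (invB z - 1/(2L+1)²) - v`, `κ = m (r+1)² / 4`: a neighbour outside is either outside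
`box z (2L)` (`invB ≤ 1/(2L+1)²`) or has `supd = r` (`invB ≤ 4/(r+1)²`); `invB z x ≥ 1/(2L²)` -/
theorem spread (v : Site → ℝ) (z x : Site) (r L : ℕ) (m : ℝ) (hm : 0 ≤ m) (hL : 1 ≤ L) (hr : r ≤ L)
    (h0 : ∀ y ∈ box z (2 * L + 1), 0 ≤ v y) (hs : ∀ y ∈ box z (2 * L), lap v y ≤ 0) (hv : ∀ y ∈ box z r, m ≤ v y)
    (hx : x ∈ box z L) : m * ((r : ℝ) + 1) ^ 2 ≤ 16 * (L : ℝ) ^ 2 * v x := by
  have hL' : (1 : ℝ) ≤ L := by exact_mod_cast hL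
  have hr' : (r : ℝ) ≤ L := by exact_mod_cast hr
  have hr0 : (0 : ℝ) ≤ r := Nat.cast_nonneg r
  by_cases hxr : x ∈ box z r
  · have h1 : ((r : ℝ) + 1) ^ 2 ≤ 16 * (L : ℝ) ^ 2 := by nlinarith
    nlinarith [hv x hxr, mul_le_mul_of_nonneg_left h1 hm, mul_le_mul_of_nonneg_left (hv x hxr) (sq_nonneg (L : ℝ))]
  obtain ⟨κ, hκ⟩ : ∃ κ, κ = m * ((r : ℝ) + 1) ^ 2 / 4 := ⟨_, rfl⟩
  have hκ0 : 0 ≤ κ := by rw [hκ]; positivity
  have hB : ∀ y (n : ℝ), y ≠ z → 0 < n → n ≤ supd y z → invB z y ≤ 1 / n ^ 2 := fun y n hy hn h => by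
    rw [invB, if_neg hy]
    exact one_div_le_one_div_of_le (by positivity) ((pow_le_pow_left₀ hn.le h 2).trans (rho2_bd z y).1)
  have h := max_principle (box z (2 * L) \ box z r) (fun y => κ * invB z y - v y) (κ * (1 / (2 * L) ^ 2))
    (fun y hy => ?_) (fun y hy α hn => ?_) x (Finset.mem_sdiff.2 ⟨box_mono z (by omega) hx, hxr⟩)
  · have hxz : x ≠ z := by rintro rfl; exact hxr (self_mem_box _ _)
    have h1 : (supd x z : ℝ) ≤ L := by exact_mod_cast mem_box.1 hx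
    have h2 : (1 : ℝ) ≤ supd x z := by
      exact_mod_cast (by have := mem_box.not.1 hxr; omega : 1 ≤ supd x z)
    have h3 : 1 / (2 * (L : ℝ) ^ 2) ≤ invB z x := by
      rw [invB, if_neg hxz]
      exact one_div_le_one_div_of_le (by nlinarith [(rho2_bd z x).1]) (by nlinarith [(rho2_bd z x).2])
    have h4 := mul_le_mul_of_nonneg_left h3 hκ0
    have h5 : κ * (1 / (4 * (L : ℝ) ^ 2)) ≤ v x := by
      have : κ * (1 / (2 * (L : ℝ) ^ 2)) - κ * (1 / (2 * L) ^ 2) = κ * (1 / (4 * (L : ℝ) ^ 2)) := by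
        field_simp; ring
      linarith
    rw [mul_one_div, div_le_iff₀ (by positivity), hκ] at h5
    linarith
  · obtain ⟨h1, h2⟩ := Finset.mem_sdiff.1 hy
    rw [lap_sub, lap_const_mul]
    have := mul_nonneg hκ0 (lap_invB (z := z) (y := y) (by rintro rfl; exact h2 (self_mem_box _ _)))
    linarith [hs y h1]
  · obtain ⟨h1, h2⟩ := Finset.mem_sdiff.1 hy
    by_cases h3 : y + dv α ∈ box z r
    · have h4 : invB z (y + dv α) ≤ 4 / ((r : ℝ) + 1) ^ 2 := by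
        have t1 := supd_triangle y (y + dv α) z
        rw [supd_comm y (y + dv α), supd_dv] at t1
        have t2 := mem_box.not.1 h2
        by_cases h5 : y + dv α = z
        · rw [h5, supd_self] at t1
          rw [invB, if_pos h5, show r = 0 by omega]; norm_num
        · have t3 : supd (y + dv α) z ≠ 0 := fun e => h5 (by
            have := supd_le.1 e.le
            ext <;> omega)
          refine (hB _ ((r + 1) / 2) h5 (by positivity) ?_).trans_eq (by field_simp; norm_num)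
          have : (r : ℝ) + 1 ≤ 2 * supd (y + dv α) z := by exact_mod_cast (by omega : r + 1 ≤ 2 * supd (y + dv α) z)
          linarith
      have h5 := mul_le_mul_of_nonneg_left h4 hκ0
      have h6 : κ * (4 / ((r : ℝ) + 1) ^ 2) = m := by rw [hκ]; field_simp
      have h7 : 0 ≤ κ * (1 / (2 * L) ^ 2) := by positivity
      linarith [hv _ h3]
    · have h4 : y + dv α ∉ box z (2 * L) := fun e => hn (Finset.mem_sdiff.2 ⟨e, h3⟩)
      have h5 := hB (y + dv α) (2 * L) (fun e => h4 (by rw [e]; exact self_mem_box _ _)) (by positivity)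
        (by exact_mod_cast (by have := mem_box.not.1 h4; omega : 2 * L ≤ supd (y + dv α) z))
      linarith [mul_le_mul_of_nonneg_left h5 hκ0, h0 _ (add_dv_mem_box h1 α)]

end Crest.Agent.R165
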