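import Crest.Agent.R165.B.Pot1
import Crest.Agent.R165.B.Pot6

/-! # R165/B2, part 6b: Harnack inequality -/

set_option autoImplicit false
noncomputable section
open Classical

namespace Crest.Agent.R165

/-- point picking.  `d y = 2L + 1 - supd y x`, `y₀` maximises `d² u` on `box x (2L)`, `m₀ = u y₀`, `ρ = (d₀ - 2) / 4`, `r = ρ / 64`.
`u ≤ 4 m₀` on `box y₀ (2ρ+1)`, `grad_rhs` on `box y₀ r` with radius `ρ`, `lip_box`: `u ≥ m₀/2 - 4 L² δ` on `box y₀ r` (trivial if `r = 0`).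
`spread` (with `2L`) for `v = u + δ (100 L² - rho2 y₀ / 4)`; `d₀ ≤ 261 (r+1)`. -/
theorem harnack_loc : ∃ C : ℝ, 1 ≤ C ∧ ∀ (u : Site → ℝ) (x : Site) (L : ℕ) (δ : ℝ), 1 ≤ L →
    (∀ y ∈ box x (6 * L + 1), 0 ≤ u y) → (∀ y ∈ box x (6 * L), |lap u y| ≤ δ) →
    ∀ y ∈ box x L, u y ≤ C * (u x + (L : ℝ) ^ 2 * δ) := by
  refine ⟨261 ^ 2 * 128 * 100, by norm_num, fun u x L δ hL h0 hl y hy => ?_⟩
  have hδ : 0 ≤ δ := (abs_nonneg _).trans (hl x (self_mem_box _ _))
  have hL' : (1 : ℝ) ≤ L := by exact_mod_cast hL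
  obtain ⟨d, hd⟩ : ∃ d : Site → ℕ, ∀ y, d y = 2 * L + 1 - supd y x := ⟨_, fun _ => rfl⟩
  obtain ⟨y₀, hy₀, hmax⟩ := (box x (2 * L)).exists_max_image (fun y => (d y : ℝ) ^ 2 * u y) ⟨x, self_mem_box _ _⟩
  have hs₀ := mem_box_supd.1 hy₀
  have hd₀ := hd y₀
  have hm : 0 ≤ u y₀ := h0 _ (box_mono x (by omega) hy₀)
  obtain ⟨ρ, hρ⟩ : ∃ ρ, ρ = (d y₀ - 2) / 4 := ⟨_, rfl⟩
  obtain ⟨r, hr⟩ : ∃ r, r = ρ / 64 := ⟨_, rfl⟩
  have hLδ : 0 ≤ (L : ℝ) ^ 2 * δ := by positivity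
  have hlow : ∀ w ∈ box y₀ r, u y₀ / 2 - 4 * ((L : ℝ) ^ 2 * δ) ≤ u w := fun w hw => by
    rcases Nat.eq_zero_or_pos r with h | h
    · have : w = y₀ := by
        rw [h, mem_box'] at hw
        ext <;> omega
      rw [this]; linarith
    have hup : ∀ z ∈ box y₀ (2 * ρ + 1), |u z| ≤ 4 * u y₀ := fun z hz => by
      have h1 := mem_box_supd.1 hz
      have h2 := supd_triangle z y₀ x
      have h3 := hd z
      have hz' : z ∈ box x (2 * L) := mem_box_supd.2 (by omega)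
      have h4 : (d y₀ : ℝ) ≤ 2 * d z := by exact_mod_cast (by omega : d y₀ ≤ 2 * d z)
      have h5 : (0 : ℝ) < d z := by exact_mod_cast (by omega : 0 < d z)
      rw [abs_of_nonneg (h0 _ (box_mono x (by omega) hz'))]
      refine le_of_mul_le_mul_left ((hmax z hz').trans ?_) (pow_pos h5 2)
      have := mul_le_mul_of_nonneg_right (pow_le_pow_left₀ (Nat.cast_nonneg _) h4 2) hm
      linarith
    have h1 := lip_box u hw (g := 2 * (4 * u y₀) / ρ + δ * ρ) fun z hz α =>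
      grad_rhs u z ρ _ δ (by omega) (fun t ht => hl t (box_subset_box hy₀ (by omega) (box_subset_box hz le_rfl ht)))
        (fun t ht => hup t (box_subset_box hz (by omega) ht)) α
    have h2 : (64 : ℝ) * r ≤ ρ := by exact_mod_cast (by omega : 64 * r ≤ ρ)
    have h3 : (ρ : ℝ) ≤ L := by exact_mod_cast (by omega : ρ ≤ L)
    have h4 : (0 : ℝ) < r := by exact_mod_cast h
    have h5 : 4 * r * (2 * (4 * u y₀) / ρ) ≤ u y₀ / 2 := by
      rw [← mul_div_assoc, div_le_iff₀ (by linarith)]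
      nlinarith
    have h6 : (r : ℝ) * ρ * δ ≤ (L : ℝ) ^ 2 * δ := mul_le_mul_of_nonneg_right (by nlinarith) hδ
    linarith [(abs_le.1 h1).1]
  have hq : ∀ w ∈ box y₀ (2 * (2 * L) + 1), 0 ≤ δ * rho2 y₀ w ∧ δ * rho2 y₀ w ≤ 50 * ((L : ℝ) ^ 2 * δ) := fun w hw => by
    have h1 : (supd w y₀ : ℝ) ≤ 5 * L := by exact_mod_cast (by have := mem_box_supd.1 hw; omega : supd w y₀ ≤ 5 * L)
    have h2 := pow_le_pow_left₀ (Nat.cast_nonneg _) h1 2
    have h3 := rho2_bd y₀ w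
    exact ⟨mul_nonneg hδ ((sq_nonneg _).trans h3.1), by nlinarith [h3.2]⟩
  have hx : x ∈ box y₀ (2 * L) := mem_box_supd.2 (by rwa [supd_comm])
  have h1 := spread (fun w => u w - δ / 4 * rho2 y₀ w + 100 * ((L : ℝ) ^ 2 * δ)) y₀ x r (2 * L) (u y₀ / 2) (by linarith)
    (by omega) (by omega)
    (fun w hw => by linarith [(hq w hw).2, h0 w (box_subset_box hy₀ (by omega) hw)])
    (fun w hw => by
      rw [lap_add, lap_sub, lap_const_mul, lap_const, lap_rho2]
      linarith [(abs_le.1 (hl w (box_subset_box hy₀ (by omega) hw))).2])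
    (fun w hw => by linarith [(hq w (box_mono _ (by omega) hw)).2, hlow w hw]) hx
  have h2 := (hq x (box_mono _ (by omega) hx)).1
  have h3 := hmax y (box_mono x (by omega) hy)
  have h4 : (L : ℝ) ≤ d y := by exact_mod_cast (by have := mem_box_supd.1 hy; have := hd y; omega : L ≤ d y)
  have h5 : (d y₀ : ℝ) ≤ 261 * (r + 1) := by exact_mod_cast (by omega : d y₀ ≤ 261 * (r + 1))
  have h6 := mul_le_mul_of_nonneg_right (pow_le_pow_left₀ (Nat.cast_nonneg _) h4 2) (h0 y (box_mono x (by omega) hy))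
  have h7 := mul_le_mul_of_nonneg_right (pow_le_pow_left₀ (Nat.cast_nonneg _) h5 2) hm
  have hL2 : 0 < (L : ℝ) ^ 2 := by positivity
  have h8 := mul_nonneg hL2.le h2
  have h9 := mul_nonneg hL2.le (h0 x (self_mem_box _ _))
  refine le_of_mul_le_mul_left ?_ hL2
  push_cast at h1
  linarith

/-- chaining: clamp the coordinates of `y` to distance `n L` from `x` -/
theorem harnack_chain (u : Site → ℝ) (x : Site) (R L : ℕ) (C η : ℝ) (hC : 1 ≤ C) (hη : 0 ≤ η) (hx : 0 ≤ u x)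
    (h : ∀ z ∈ box x R, ∀ y ∈ box x R, supd y z ≤ L → u y ≤ C * (u z + η)) (n : ℕ) :
    ∀ y ∈ box x R, supd y x ≤ n * L → u y ≤ C ^ n * (u x + n * η) := by
  induction n with
  | zero =>
    intro y _ h1
    have : y = x := by
      rw [zero_mul, supd_le] at h1
      ext <;> omega
    simp [this]
  | succ n ih =>
    intro y hy h1
    obtain ⟨k, hk⟩ : ∃ k : ℕ, k = n * L := ⟨_, rfl⟩
    rw [add_mul, one_mul, ← hk, supd_le] at h1
    have hy' := mem_box'.1 hy
    obtain ⟨z, hz⟩ : ∃ z : Site, z = (max (x.1 - k) (min y.1 (x.1 + k)), max (x.2 - k) (min y.2 (x.2 + k))) := ⟨_, rfl⟩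
    have hz1 : z ∈ box x R := by rw [hz, mem_box']; simp only; omega
    have h2 := ih z hz1 (by rw [← hk, hz, supd_le]; simp only; omega)
    have h3 := h z hz1 y hy (by rw [hz, supd_le]; simp only; omega)
    have h4 : η ≤ C ^ n * η := le_mul_of_one_le_left hη (one_le_pow₀ hC)
    refine h3.trans ?_
    rw [pow_succ', mul_assoc]
    refine mul_le_mul_of_nonneg_left ?_ (by linarith)
    push_cast
    linarith

/-- Harnack inequality with a right-hand side (used on the torus).  `R ≥ 6`: `L = R / 6`, `n = 11`, `harnack_loc`.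
`R < 6`: `L = 1`, `n = 5`, `u (z + dv α) ≤ 4 u z + δ` twice. -/
theorem harnack : ∃ C : ℝ, ∀ (u : Site → ℝ) (x : Site) (R : ℕ) (δ : ℝ), 1 ≤ R →
    (∀ y ∈ box x (2 * R + 1), 0 ≤ u y) → (∀ y ∈ box x (2 * R), |lap u y| ≤ δ) →
    ∀ y ∈ box x R, u y ≤ C * (u x + (R : ℝ) ^ 2 * δ) := by
  obtain ⟨C, hC, H⟩ := harnack_loc
  refine ⟨11 * (C ^ 11 + 16 ^ 11), fun u x R δ hR h0 hl y hy => ?_⟩
  have hδ : 0 ≤ δ := (abs_nonneg _).trans (hl x (self_mem_box _ _))
  have hR' : (1 : ℝ) ≤ R := by exact_mod_cast hR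
  have hx := h0 x (self_mem_box _ _)
  have key : ∀ (L : ℕ) (C' : ℝ), 1 ≤ C' → L ≤ R → R ≤ 11 * L →
      (∀ z ∈ box x R, ∀ y ∈ box x R, supd y z ≤ L → u y ≤ C' * (u z + (L : ℝ) ^ 2 * δ)) →
      u y ≤ 11 * C' ^ 11 * (u x + (R : ℝ) ^ 2 * δ) := fun L C' hC' h1 h2 h => by
    refine (harnack_chain u x R L C' _ hC' (by positivity) hx h 11 y hy ((mem_box_supd.1 hy).trans h2)).trans ?_
    have h3 : (L : ℝ) ^ 2 * δ ≤ (R : ℝ) ^ 2 * δ :=
      mul_le_mul_of_nonneg_right (pow_le_pow_left₀ (Nat.cast_nonneg _) (by exact_mod_cast h1) 2) hδ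
    rw [mul_comm 11, mul_assoc]
    refine mul_le_mul_of_nonneg_left ?_ (by positivity)
    push_cast
    linarith
  have hp : 0 ≤ u x + (R : ℝ) ^ 2 * δ := by positivity
  have hC0 : 0 ≤ C ^ 11 := by positivity
  rcases le_or_gt 6 R with h6 | h6
  · refine (key (R / 6) C hC (by omega) (by omega) fun z hz w _ hw => H u z _ δ (by omega)
      (fun t ht => h0 t (box_subset_box hz (by omega) ht)) (fun t ht => hl t (box_subset_box hz (by omega) ht)) w
      (mem_box_supd.2 hw)).trans (mul_le_mul_of_nonneg_right (by linarith [pow_nonneg (by norm_num : (0 : ℝ) ≤ 16) 11]) hp)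
  · have step : ∀ z ∈ box x R, ∀ w : Site, (w = z ∨ ∃ α, w = z + dv α) → u w ≤ 4 * u z + δ := by
      rintro z hz w (rfl | ⟨α, rfl⟩)
      · linarith [h0 w (box_mono x (by omega) hz)]
      · have h1 := (abs_le.1 (hl z (box_mono x (by omega) hz))).2
        have h2 := Finset.single_le_sum (f := fun β => u (z + dv β))
          (fun β _ => h0 _ (box_mono x (by omega) (add_dv_mem_box' hz β))) (Finset.mem_univ α)
        rw [lap, Finset.sum_sub_distrib] at h1
        simp only [Finset.sum_const, Finset.card_univ, Fintype.card_fin, nsmul_eq_mul, Nat.cast_ofNat] at h1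
        linarith
    refine (key 1 16 (by norm_num) hR (by omega) fun z hz w hw h => ?_).trans
      (mul_le_mul_of_nonneg_right (by linarith) hp)
    rw [supd_le] at h
    have hm : (w.1, z.2) ∈ box x R := by rw [mem_box'] at *; simp only; omega
    have h1 := step z hz (w.1, z.2) (by
      rcases (by omega : w.1 = z.1 ∨ w.1 = z.1 + 1 ∨ w.1 = z.1 - 1) with e | e | e <;> rw [e]
      exacts [Or.inl rfl, Or.inr ⟨0, (add_dv0 z).symm⟩, Or.inr ⟨2, (add_dv2 z).symm⟩])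
    have h2 := step _ hm w (by
      rcases (by omega : w.2 = z.2 ∨ w.2 = z.2 + 1 ∨ w.2 = z.2 - 1) with e | e | e
      exacts [Or.inl (Prod.ext rfl e), Or.inr ⟨1, by rw [add_dv1]; exact Prod.ext rfl e⟩,
        Or.inr ⟨3, by rw [add_dv3]; exact Prod.ext rfl e⟩])
    push_cast
    linarith

end Crest.Agent.R165
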