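import Crest.Agent.R165.B.Pot1

/-! # R165/B2, part 7: interior estimates and Liouville theorem for bulk solutions -/

set_option autoImplicit false
noncomputable section
open Classical

namespace Crest.Agent.R165

theorem lap_of_sol {s : Fn} {x : Site} (h : SolOn wPl (box x 2) s) (α : Fin 4) : lap (fun y => s (y, α)) x = 0 := by
  have := harm_of_sol h α
  rw [lap, Fin.sum_univ_four]
  have e2 : x + dv 2 = x - (1, 0) := by rw [add_dv2]; exact Prod.ext rfl (sub_zero _).symm
  have e3 : x + dv 3 = x - (0, 1) := by rw [add_dv3]; exact Prod.ext (sub_zero _).symm rfl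
  rw [e2, e3, show dv 0 = (1, 0) from rfl, show dv 1 = (0, 1) from rfl]
  linarith

theorem opA_shift (a : Site) (s : Fn) : opA wPl (shift a s) = shift a (opA wPl s) := by
  funext i
  simp only [opA, opp, sv, shift, wPl, add_right_comm]

theorem opA_sub (w : Edge → ℝ) (s s' : Fn) : opA w (s - s') = opA w s - opA w s' := by
  funext i
  simp only [opA, opp, sv, Pi.sub_apply]
  split_ifs <;> ring

theorem opA_smul (w : Edge → ℝ) (c : ℝ) (s : Fn) : opA w (c • s) = c • opA w s := by
  funext i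
  simp only [opA, opp, sv, Pi.smul_apply, smul_eq_mul]
  split_ifs <;> ring

theorem mas_dif (a : Site) (s : Fn) : mas (dif a s) = dif a (mas s) := by
  funext ⟨x, α⟩
  induction α using b1_fin4 <;> simp only [dif, mas_0, mas_1, mas_2, mas_3] <;> ring

/-- interior estimates for bulk solutions.  The components are harmonic on `box x (4R+6)`; `grad_rhs` with `δ = 0` and radius `R` bounds the
first differences on `box x (3R+6)`, the second ones on `box x (2R+5)`, the third ones on `box x (R+4)` (`box_subset_box`; a difference of a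
harmonic function is harmonic, `lap_sub`, `lap_shift`).  `mas_le` for `s` and for `dif (dv β) s = shift (dv β) s - s`. -/
theorem interior : ∃ C : ℝ, ∀ (s : Fn) (x : Site) (R : ℕ) (M : ℝ), 1 ≤ R →
    SolOn wPl (box x (4 * R + 8)) s → SB (box x (4 * R + 8)) M s → ∀ y ∈ box x R, ∀ α β γ δ : Fin 4,
      |dif (dv β) s (y, α)| ≤ C * M / R ∧ |dif (dv γ) (dif (dv β) s) (y, α)| ≤ C * M / (R : ℝ) ^ 2 ∧
      |dif (dv δ) (dif (dv γ) (dif (dv β) s)) (y, α)| ≤ C * M / (R : ℝ) ^ 3 ∧
      |mas s (y, α)| ≤ C * M / R ∧ |dif (dv β) (mas s) (y, α)| ≤ C * M / (R : ℝ) ^ 2 := by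
  obtain ⟨K, hK⟩ := mas_le
  refine ⟨8 + 4 * |K|, fun s x R M hR hs' hM' y hy α β γ δ => ?_⟩
  have hs : ∀ z ∈ box x (4 * R + 8), ∀ α, opA wPl s (z, α) = 0 := fun z hz => hs' z (Finset.mem_coe.2 hz)
  have hM : ∀ z ∈ box x (4 * R + 8), ∀ α, |s (z, α)| ≤ M := fun z hz => hM' z (Finset.mem_coe.2 hz)
  have hM0 : 0 ≤ M := (abs_nonneg _).trans (hM x (self_mem_box _ _) 0)
  have hR' : (0 : ℝ) < R := by exact_mod_cast hR
  have step : ∀ (t : Fn) (n : ℕ) (m : ℝ), (∀ z ∈ box x (n + R), ∀ α, lap (fun w => t (w, α)) z = 0) →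
      (∀ z ∈ box x (n + R + 1), ∀ α, |t (z, α)| ≤ m) → ∀ β, ∀ z ∈ box x n, ∀ α, |dif (dv β) t (z, α)| ≤ 2 * m / R :=
    fun t n m h1 h2 β z hz α => by
      simpa [dif] using grad_rhs (fun w => t (w, α)) z R m 0 hR
        (fun w hw => by rw [h1 w (box_subset_box hz le_rfl hw), abs_zero])
        (fun w hw => h2 w (box_subset_box hz (by omega) hw) α) β
  have hd : ∀ (t : Fn) (n : ℕ), (∀ z ∈ box x (n + 1), ∀ α, lap (fun w => t (w, α)) z = 0) →
      ∀ β, ∀ z ∈ box x n, ∀ α, lap (fun w => dif (dv β) t (w, α)) z = 0 := fun t n h β z hz α => by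
    simp only [dif]
    rw [lap_sub, lap_shift (fun w => t (w, α)), h _ (add_dv_mem_box hz β), h _ (box_mono x n.le_succ hz), sub_zero]
  have l0 : ∀ z ∈ box x (4 * R + 6), ∀ α, lap (fun w => s (w, α)) z = 0 := fun z hz α =>
    lap_of_sol (fun w hw => hs w (box_subset_box hz (by omega) (Finset.mem_coe.1 hw))) α
  have l1 := hd s (4 * R + 5) l0
  have l2 := fun β => hd _ (4 * R + 4) (l1 β)
  have b1 := step s (3 * R + 6) M (fun z hz => l0 z (box_mono x (by omega) hz)) fun z hz => hM z (box_mono x (by omega) hz)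
  have b2 := fun β => step _ (2 * R + 5) _ (fun z hz => l1 β z (box_mono x (by omega) hz))
    fun z hz => b1 β z (box_mono x (by omega) hz)
  have b3 := fun β γ => step _ R _ (fun z hz => l2 β γ z (box_mono x (by omega) hz))
    fun z hz => b2 β γ z (box_mono x (by omega) hz)
  have y1 : y ∈ box x (3 * R + 6) := box_mono x (by omega) hy
  have y2 : y ∈ box x (2 * R + 5) := box_mono x (by omega) hy
  have m1 := hK s y _ (fun w hw => hs w (by rw [hw]; exact box_mono x (by omega) hy)) (fun α β => b1 β y y1 α) α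
  have m2 := hK (dif (dv β) s) y _ (fun w hw α => by
    rw [hw, show dif (dv β) s = shift (dv β) s - s from rfl, opA_sub, opA_shift, Pi.sub_apply,
      hs y (box_mono x (by omega) hy), sub_zero]
    exact hs _ (box_mono x (by omega) (add_dv_mem_box hy β)) α) (fun α γ => b2 β γ y y2 α) α
  rw [mas_dif] at m2
  have hK0 := abs_nonneg K
  have hK1 := le_abs_self K
  have p1 : 0 ≤ M / R := by positivity
  have p2 : 0 ≤ M / (R : ℝ) ^ 2 := by positivity
  have p3 : 0 ≤ M / (R : ℝ) ^ 3 := by positivity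
  have e1 : 2 * M / R = 2 * (M / R) := by ring
  have e2 : 2 * (2 * M / R) / R = 4 * (M / (R : ℝ) ^ 2) := by ring
  have e3 : 2 * (2 * (2 * M / R) / R) / R = 8 * (M / (R : ℝ) ^ 3) := by ring
  simp only [mul_div_assoc (8 + 4 * |K|)]
  refine ⟨(b1 β y y1 α).trans ?_, (b2 β γ y y2 α).trans ?_, (b3 β γ δ y hy α).trans ?_, m1.trans ?_, m2.trans ?_⟩
  · rw [e1]; nlinarith
  · rw [e2]; nlinarith
  · rw [e3]; nlinarith
  · rw [e1]; nlinarith
  · rw [e2]; nlinarith

/-- Liouville (`harm_decay`) -/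
theorem liouville {s : Fn} (hs : SolOn wPl Set.univ s)
    (hd : ∀ ε > 0, ∃ R : ℕ, ∀ x, x ∉ box 0 R → ∀ α, |s (x, α)| ≤ ε) : s = 0 := by
  funext ⟨x, α⟩
  exact harm_decay (u := fun y => s (y, α)) (fun y => lap_of_sol (fun w _ => hs w trivial) α)
    (fun ε hε => (hd ε hε).imp fun _ h y hy => h y hy α) x

end Crest.Agent.R165
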