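import Crest.Agent.R165.B.Pot2b

/-! # R165/B2, part 8: existence of the plane kernel (owner helper81).
`adjB` is the adjugate of the symbol of `opA wPl`, acting on the values `F p q` of a function at the nine sites around a point. -/

set_option autoImplicit false
noncomputable section
open Classical

namespace Crest.Agent.R165

def adjB (t : ℝ) (F : ℤ → ℤ → ℝ) (α β : Fin 4) : ℝ :=
  ![![-(t * F 0 (-1)) + t * F 0 1,
      t * F 0 (-1) - F 0 0 + t ^ 2 * F 1 (-1) + t * F 1 0,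
      F 0 0 - t ^ 2 * F 0 0 - t ^ 2 * F 1 (-1) - t * F 1 0 - t ^ 3 * F 1 0 - t ^ 2 * F 1 1,
      -(F 0 0) + t * F 0 1 + t * F 1 0 + t ^ 2 * F 1 1],
    ![-(t * F (-1) 0) - t ^ 2 * F (-1) 1 + F 0 0 - t * F 0 1,
      t * F (-1) 0 - t * F 1 0,
      -(F 0 0) + t * F 0 1 + t * F 1 0 + t ^ 2 * F 1 1,
      -(t ^ 2 * F (-1) 1) + F 0 0 - t ^ 2 * F 0 0 - t * F 0 1 - t ^ 3 * F 0 1 - t ^ 2 * F 1 1],
    ![t ^ 2 * F (-1) (-1) + t * F (-1) 0 + t ^ 3 * F (-1) 0 + t ^ 2 * F (-1) 1 - F 0 0 + t ^ 2 * F 0 0,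
      -(t ^ 2 * F (-1) (-1)) - t * F (-1) 0 - t * F 0 (-1) + F 0 0,
      t * F 0 (-1) - t * F 0 1,
      t * F (-1) 0 + t ^ 2 * F (-1) 1 - F 0 0 + t * F 0 1],
    ![-(t ^ 2 * F (-1) (-1)) - t * F (-1) 0 - t * F 0 (-1) + F 0 0,
      t ^ 2 * F (-1) (-1) + t * F 0 (-1) + t ^ 3 * F 0 (-1) - F 0 0 + t ^ 2 * F 0 0 + t ^ 2 * F 1 (-1),
      -(t * F 0 (-1)) + F 0 0 - t ^ 2 * F 1 (-1) - t * F 1 0,
      -(t * F (-1) 0) + t * F 1 0]] α β

/-- the determinant of the symbol -/
def detB (t : ℝ) (F : ℤ → ℤ → ℝ) : ℝ :=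
  (1 + t ^ 2) ^ 2 * F 0 0 - (t - t ^ 3) * (F 1 0 + F 0 1 + F (-1) 0 + F 0 (-1))

theorem adjB_0 (t : ℝ) (F : ℤ → ℤ → ℝ) (β : Fin 4) :
    adjB t F 1 β + adjB t F 2 β + adjB t F 3 β + t * adjB t (fun p q => F (p + 1) q) 2 β =
      if 0 = β then detB t F else 0 := by
  fin_cases β <;> simp [adjB, detB] <;> ring

theorem adjB_1 (t : ℝ) (F : ℤ → ℤ → ℝ) (β : Fin 4) :
    adjB t F 2 β + adjB t F 3 β + -adjB t F 0 β + t * adjB t (fun p q => F p (q + 1)) 3 β =
      if 1 = β then detB t F else 0 := by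
  fin_cases β <;> simp [adjB, detB] <;> ring

theorem adjB_2 (t : ℝ) (F : ℤ → ℤ → ℝ) (β : Fin 4) :
    adjB t F 3 β + -adjB t F 0 β + -adjB t F 1 β + t * -adjB t (fun p q => F (p - 1) q) 0 β =
      if 2 = β then detB t F else 0 := by
  fin_cases β <;> simp [adjB, detB] <;> ring

theorem adjB_3 (t : ℝ) (F : ℤ → ℤ → ℝ) (β : Fin 4) :
    -adjB t F 0 β + -adjB t F 1 β + -adjB t F 2 β + t * -adjB t (fun p q => F p (q - 1)) 1 β =
      if 3 = β then detB t F else 0 := by
  fin_cases β <;> simp [adjB, detB] <;> ring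

theorem adjB_neg (t : ℝ) (F : ℤ → ℤ → ℝ) (α β : Fin 4) :
    adjB t (fun p q => F (-p) (-q)) β α = -adjB t F α β := by
  fin_cases α <;> fin_cases β <;> simp [adjB] <;> ring

theorem adjB_le (F : ℤ → ℤ → ℝ) (c δ : ℝ)
    (hF : ∀ p q : ℤ, -1 ≤ p ∧ p ≤ 1 → -1 ≤ q ∧ q ≤ 1 → |F p q - c| ≤ δ) (α β : Fin 4) : |adjB tc F α β| ≤ 6 * δ := by
  have hδ : 0 ≤ δ := (abs_nonneg _).trans (hF 0 0 (by omega) (by omega))
  have h0 : ∀ (k : ℕ) (p q : ℤ), -1 ≤ p ∧ p ≤ 1 → -1 ≤ q ∧ q ≤ 1 → |tc ^ k * (F p q - c)| ≤ δ := fun k p q hp hq => by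
    rw [abs_mul, abs_of_nonneg (pow_nonneg tc_pos.1.le k)]
    exact (mul_le_of_le_one_left (abs_nonneg _) (pow_le_one₀ tc_pos.1.le tc_pos.2.le)).trans (hF p q hp hq)
  have h := fun k p q hp hq => (abs_le.1 (h0 k p q hp hq)).1
  have h' := fun k p q hp hq => (abs_le.1 (h0 k p q hp hq)).2
  have h2 : (tc ^ 2 + 2 * tc) * c = c := by rw [tc_sq, one_mul]
  have h3 : tc * ((tc ^ 2 + 2 * tc) * c) = tc * c := by rw [h2]
  rw [abs_le]
  fin_cases α <;> fin_cases β <;> simp only [adjB, Fin.zero_eta, Fin.mk_one, Fin.reduceFinMk, Fin.isValue,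
    Matrix.cons_val_zero, Matrix.cons_val_one, Matrix.cons_val]
  · constructor <;> linarith [h2, h3, h 1 0 (-1) (by omega) (by omega), h' 1 0 (-1) (by omega) (by omega), h 1 0 1 (by omega) (by omega), h' 1 0 1 (by omega) (by omega)]
  · constructor <;> linarith [h2, h3, h 1 0 (-1) (by omega) (by omega), h' 1 0 (-1) (by omega) (by omega), h 0 0 0 (by omega) (by omega), h' 0 0 0 (by omega) (by omega), h 2 1 (-1) (by omega) (by omega), h' 2 1 (-1) (by omega) (by omega), h 1 1 0 (by omega) (by omega), h' 1 1 0 (by omega) (by omega)]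
  · constructor <;> linarith [h2, h3, h 0 0 0 (by omega) (by omega), h' 0 0 0 (by omega) (by omega), h 2 0 0 (by omega) (by omega), h' 2 0 0 (by omega) (by omega), h 2 1 (-1) (by omega) (by omega), h' 2 1 (-1) (by omega) (by omega), h 1 1 0 (by omega) (by omega), h' 1 1 0 (by omega) (by omega), h 3 1 0 (by omega) (by omega), h' 3 1 0 (by omega) (by omega), h 2 1 1 (by omega) (by omega), h' 2 1 1 (by omega) (by omega)]
  · constructor <;> linarith [h2, h3, h 0 0 0 (by omega) (by omega), h' 0 0 0 (by omega) (by omega), h 1 0 1 (by omega) (by omega), h' 1 0 1 (by omega) (by omega), h 1 1 0 (by omega) (by omega), h' 1 1 0 (by omega) (by omega), h 2 1 1 (by omega) (by omega), h' 2 1 1 (by omega) (by omega)]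
  · constructor <;> linarith [h2, h3, h 1 (-1) 0 (by omega) (by omega), h' 1 (-1) 0 (by omega) (by omega), h 2 (-1) 1 (by omega) (by omega), h' 2 (-1) 1 (by omega) (by omega), h 0 0 0 (by omega) (by omega), h' 0 0 0 (by omega) (by omega), h 1 0 1 (by omega) (by omega), h' 1 0 1 (by omega) (by omega)]
  · constructor <;> linarith [h2, h3, h 1 (-1) 0 (by omega) (by omega), h' 1 (-1) 0 (by omega) (by omega), h 1 1 0 (by omega) (by omega), h' 1 1 0 (by omega) (by omega)]
  · constructor <;> linarith [h2, h3, h 0 0 0 (by omega) (by omega), h' 0 0 0 (by omega) (by omega), h 1 0 1 (by omega) (by omega), h' 1 0 1 (by omega) (by omega), h 1 1 0 (by omega) (by omega), h' 1 1 0 (by omega) (by omega), h 2 1 1 (by omega) (by omega), h' 2 1 1 (by omega) (by omega)]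
  · constructor <;> linarith [h2, h3, h 2 (-1) 1 (by omega) (by omega), h' 2 (-1) 1 (by omega) (by omega), h 0 0 0 (by omega) (by omega), h' 0 0 0 (by omega) (by omega), h 2 0 0 (by omega) (by omega), h' 2 0 0 (by omega) (by omega), h 1 0 1 (by omega) (by omega), h' 1 0 1 (by omega) (by omega), h 3 0 1 (by omega) (by omega), h' 3 0 1 (by omega) (by omega), h 2 1 1 (by omega) (by omega), h' 2 1 1 (by omega) (by omega)]
  · constructor <;> linarith [h2, h3, h 2 (-1) (-1) (by omega) (by omega), h' 2 (-1) (-1) (by omega) (by omega), h 1 (-1) 0 (by omega) (by omega), h' 1 (-1) 0 (by omega) (by omega), h 3 (-1) 0 (by omega) (by omega), h' 3 (-1) 0 (by omega) (by omega), h 2 (-1) 1 (by omega) (by omega), h' 2 (-1) 1 (by omega) (by omega), h 0 0 0 (by omega) (by omega), h' 0 0 0 (by omega) (by omega), h 2 0 0 (by omega) (by omega), h' 2 0 0 (by omega) (by omega)]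
  · constructor <;> linarith [h2, h3, h 2 (-1) (-1) (by omega) (by omega), h' 2 (-1) (-1) (by omega) (by omega), h 1 (-1) 0 (by omega) (by omega), h' 1 (-1) 0 (by omega) (by omega), h 1 0 (-1) (by omega) (by omega), h' 1 0 (-1) (by omega) (by omega), h 0 0 0 (by omega) (by omega), h' 0 0 0 (by omega) (by omega)]
  · constructor <;> linarith [h2, h3, h 1 0 (-1) (by omega) (by omega), h' 1 0 (-1) (by omega) (by omega), h 1 0 1 (by omega) (by omega), h' 1 0 1 (by omega) (by omega)]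
  · constructor <;> linarith [h2, h3, h 1 (-1) 0 (by omega) (by omega), h' 1 (-1) 0 (by omega) (by omega), h 2 (-1) 1 (by omega) (by omega), h' 2 (-1) 1 (by omega) (by omega), h 0 0 0 (by omega) (by omega), h' 0 0 0 (by omega) (by omega), h 1 0 1 (by omega) (by omega), h' 1 0 1 (by omega) (by omega)]
  · constructor <;> linarith [h2, h3, h 2 (-1) (-1) (by omega) (by omega), h' 2 (-1) (-1) (by omega) (by omega), h 1 (-1) 0 (by omega) (by omega), h' 1 (-1) 0 (by omega) (by omega), h 1 0 (-1) (by omega) (by omega), h' 1 0 (-1) (by omega) (by omega), h 0 0 0 (by omega) (by omega), h' 0 0 0 (by omega) (by omega)]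
  · constructor <;> linarith [h2, h3, h 2 (-1) (-1) (by omega) (by omega), h' 2 (-1) (-1) (by omega) (by omega), h 1 0 (-1) (by omega) (by omega), h' 1 0 (-1) (by omega) (by omega), h 3 0 (-1) (by omega) (by omega), h' 3 0 (-1) (by omega) (by omega), h 0 0 0 (by omega) (by omega), h' 0 0 0 (by omega) (by omega), h 2 0 0 (by omega) (by omega), h' 2 0 0 (by omega) (by omega), h 2 1 (-1) (by omega) (by omega), h' 2 1 (-1) (by omega) (by omega)]
  · constructor <;> linarith [h2, h3, h 1 0 (-1) (by omega) (by omega), h' 1 0 (-1) (by omega) (by omega), h 0 0 0 (by omega) (by omega), h' 0 0 0 (by omega) (by omega), h 2 1 (-1) (by omega) (by omega), h' 2 1 (-1) (by omega) (by omega), h 1 1 0 (by omega) (by omega), h' 1 1 0 (by omega) (by omega)]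
  · constructor <;> linarith [h2, h3, h 1 (-1) 0 (by omega) (by omega), h' 1 (-1) 0 (by omega) (by omega), h 1 1 0 (by omega) (by omega), h' 1 1 0 (by omega) (by omega)]

theorem opA_wPl (s : Fn) (x : Site) :
    opA wPl s (x, 0) = s (x, 1) + s (x, 2) + s (x, 3) + tc * s ((x.1 + 1, x.2), 2) ∧
    opA wPl s (x, 1) = s (x, 2) + s (x, 3) + -s (x, 0) + tc * s ((x.1, x.2 + 1), 3) ∧
    opA wPl s (x, 2) = s (x, 3) + -s (x, 0) + -s (x, 1) + tc * -s ((x.1 - 1, x.2), 0) ∧
    opA wPl s (x, 3) = -s (x, 0) + -s (x, 1) + -s (x, 2) + tc * -s ((x.1, x.2 - 1), 1) := by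
  rw [← add_dv0, ← add_dv1, ← add_dv2, ← add_dv3]
  refine ⟨?_, ?_, ?_, ?_⟩ <;> simp [opA, sv, opp, wPl]

theorem exists_gPl : ∃ (g : HE → HE → ℝ) (C : ℝ), IsKer wPl g ∧ ∀ i j, |g i j| ≤ C / (supd i.1 j.1 + 1) := by
  obtain ⟨a, C, ha, hn, hC⟩ := exists_potKer
  have hC0 : 0 ≤ C := by simpa [supd_self] using (abs_nonneg _).trans (hC 0 0)
  have hc : 0 < tc - tc ^ 3 := by
    have := tc_pos
    have := tc_sq
    nlinarith
  obtain ⟨F, hF⟩ : ∃ F : Site → Site → ℤ → ℤ → ℝ, F = fun z x p q => a (x.1 - z.1 + p, x.2 - z.2 + q) := ⟨_, rfl⟩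
  have hd : ∀ z x, detB tc (F z x) = -(tc - tc ^ 3) * if x = z then 1 else 0 := fun z x => by
    have h1 := ha (x - z)
    simp only [sub_eq_zero, lap_eq] at h1
    rw [← h1, hF, detB]
    simp only [add_zero, ← sub_eq_add_neg, Prod.fst_sub, Prod.snd_sub]
    have e : (x.1 - z.1, x.2 - z.2) = x - z := rfl
    rw [e]
    linear_combination (tc ^ 2 + 2 * tc - 1) * a (x - z) * tc_sq
  refine ⟨fun k i => -(tc - tc ^ 3)⁻¹ * adjB tc (F k.1 i.1) i.2 k.2, (tc - tc ^ 3)⁻¹ * (6 * (4 * (2 * C))),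
    ⟨fun i j => ?_, fun k i => ?_⟩, fun k i => ?_⟩
  · have e : F j.1 i.1 = fun p q => F i.1 j.1 (-p) (-q) := by
      funext p q
      simp only [hF]
      rw [← hn]
      congr 1
      ext <;> simp <;> ring
    simp only [e, adjB_neg]
    ring
  · obtain ⟨z, β⟩ := k
    obtain ⟨x, α⟩ := i
    have e0 : F z (x.1 + 1, x.2) = fun p q => F z x (p + 1) q := by funext p q; simp only [hF]; ring_nf
    have e1 : F z (x.1, x.2 + 1) = fun p q => F z x p (q + 1) := by funext p q; simp only [hF]; ring_nf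
    have e2 : F z (x.1 - 1, x.2) = fun p q => F z x (p - 1) q := by funext p q; simp only [hF]; ring_nf
    have e3 : F z (x.1, x.2 - 1) = fun p q => F z x p (q - 1) := by funext p q; simp only [hF]; ring_nf
    have key : ∀ γ : Fin 4, -(tc - tc ^ 3)⁻¹ * (if γ = β then detB tc (F z x) else 0) =
        if (x, γ) = (z, β) then 1 else 0 := fun γ => by
      rw [hd]
      by_cases h1 : γ = β <;> by_cases h2 : x = z <;> simp [h1, h2]
      linear_combination inv_mul_cancel₀ hc.ne'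
    obtain ⟨h0, h1, h2, h3⟩ := opA_wPl (fun i => -(tc - tc ^ 3)⁻¹ * adjB tc (F z i.1) i.2 β) x
    fin_cases α
    · refine h0.trans (Eq.trans ?_ (key 0))
      simp only [e0, ← adjB_0]; ring
    · refine h1.trans (Eq.trans ?_ (key 1))
      simp only [e1, ← adjB_1]; ring
    · refine h2.trans (Eq.trans ?_ (key 2))
      simp only [e2, ← adjB_2]; ring
    · refine h3.trans (Eq.trans ?_ (key 3))
      simp only [e3, ← adjB_3]; ring
  · have h1 := adjB_le (F k.1 i.1) (a (i.1 - k.1)) (4 * (1 : ℕ) * (2 * C / (supd k.1 i.1 + 1))) (fun p q hp hq => by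
      rw [hF]
      refine lip_box a (mem_box'.2 (by simp only [Prod.fst_sub, Prod.snd_sub]; omega)) fun w hw α => (hC w α).trans ?_
      have h2 := supd_triangle (i.1 - k.1) w 0
      rw [supd_sub, supd_comm _ w, supd_comm] at h2
      have h3 : (supd k.1 i.1 : ℝ) + 1 ≤ 2 * (supd w 0 + 1) := by
        exact_mod_cast (by have := mem_box_supd.1 hw; omega : supd k.1 i.1 + 1 ≤ 2 * (supd w 0 + 1))
      rw [div_le_div_iff₀ (by positivity) (by positivity)]
      nlinarith) i.2 k.2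
    rw [abs_mul, abs_neg, abs_of_pos (inv_pos.2 hc), mul_div_assoc]
    refine mul_le_mul_of_nonneg_left (h1.trans_eq ?_) (inv_pos.2 hc).le
    push_cast
    ring

end Crest.Agent.R165
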