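import Crest.Agent.R165.B.Pot4
import Crest.Agent.R165.B.Pot4b
import Crest.Agent.R165.B.Pot5
import Crest.Agent.R165.B.Pot6b
import Crest.Agent.R165.B.Pot7
import Crest.Agent.R165.B.Pot8

/-! # R165 block B2: discrete potential theory on `ℤ²`, plane kernel, interior estimates (owner helper81).
`lap`, `max_principle`, box lemmas: Pot0; `grad_harm`: Pot1; `exists_potKer`: Pot2b; `exists_cutoff`: Pot3; `submean`: Pot4; `grad_L1`: Pot4b;
`poincare_box`, `poincare_frame`: Pot5; `harnack`: Pot6b; `interior`, `liouville`: Pot7; `exists_gPl`: Pot8. -/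

set_option autoImplicit false
noncomputable section
open Classical

namespace Crest.Agent.R165

/-- the plane kernel -/
def gPl : HE → HE → ℝ := exists_gPl.choose

theorem gPl_ker : IsKer wPl gPl := exists_gPl.choose_spec.choose_spec.1

theorem gPl_bound : ∃ C : ℝ, ∀ i j, |gPl i j| ≤ C / (supd i.1 j.1 + 1) :=
  ⟨_, exists_gPl.choose_spec.choose_spec.2⟩

/-- uniqueness of the decaying solution (`liouville` for `s - c • gPl i`, `decay_of_bound`) -/
theorem gPl_unique {s : Fn} {i : HE} {c C : ℝ} (hs : ∀ j, opA wPl s j = if j = i then c else 0)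
    (hd : ∀ j, |s j| ≤ C / (supd i.1 j.1 + 1)) (j : HE) : s j = c * gPl i j := by
  obtain ⟨K, hK⟩ := gPl_bound
  refine sub_eq_zero.1 (congrFun (liouville (s := s - c • gPl i) (fun x _ α => ?_) fun ε hε => ?_) j)
  · rw [opA_sub, opA_smul, Pi.sub_apply, Pi.smul_apply, hs, gPl_ker.2]
    split_ifs <;> simp
  · refine (decay_of_bound (C + |c| * K) i.1 hε).imp fun R h x hx α => le_trans ?_ (h x hx)
    have h1 := hd (x, α)
    have h2 := mul_le_mul_of_nonneg_left (hK i (x, α)) (abs_nonneg c)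
    rw [Pi.sub_apply, Pi.smul_apply, smul_eq_mul, supd_comm x, add_div, mul_div_assoc]
    refine (abs_sub _ _).trans ?_
    rw [abs_mul]
    exact add_le_add h1 h2

theorem gPl_shift (a : Site) (i j : HE) : gPl (i.1 + a, i.2) (j.1 + a, j.2) = gPl i j := by
  obtain ⟨K, hK⟩ := gPl_bound
  refine (gPl_unique (s := shift a (gPl (i.1 + a, i.2))) (i := i) (c := 1) (C := K) (fun k => ?_) (fun k => ?_) j).trans
    (one_mul _)
  · rw [opA_shift, shift, gPl_ker.2]
    simp [Prod.ext_iff]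
  · simpa [supd_add, shift] using hK (i.1 + a, i.2) (k.1 + a, k.2)

/-- `rotF` is a signed permutation -/
theorem rotF_eq : ∃ (ε : HE → ℝ) (ρ : HE → HE), (∀ i, ε i = 1 ∨ ε i = -1) ∧ Function.Injective ρ ∧
    (∀ i j, supd (ρ i).1 (ρ j).1 = supd i.1 j.1) ∧ ∀ s i, rotF s i = ε i * s (ρ i) := by
  refine ⟨fun i => if i.2 = 0 then -1 else 1, fun i => ((i.1.2, -i.1.1), i.2 + 3), fun i => ?_, fun i j h => ?_,
    fun i j => ?_, fun s i => ?_⟩
  · simp only; split_ifs <;> simp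
  · simp only [Prod.ext_iff, neg_inj, add_left_inj] at h ⊢
    tauto
  · simp only [supd]; omega
  · induction i using b1_he <;> simp [rotF_0, rotF_1, rotF_2, rotF_3]

theorem refF_eq : ∃ (ε : HE → ℝ) (ρ : HE → HE), (∀ i, ε i = 1 ∨ ε i = -1) ∧ Function.Injective ρ ∧
    (∀ i j, supd (ρ i).1 (ρ j).1 = supd i.1 j.1) ∧ ∀ s i, refF s i = ε i * s (ρ i) := by
  refine ⟨fun i => if i.2 = 0 then 1 else -1, fun i => ((i.1.1, -i.1.2), -i.2), fun i => ?_, fun i j h => ?_,
    fun i j => ?_, fun s i => ?_⟩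
  · simp only; split_ifs <;> simp
  · simp only [Prod.ext_iff, neg_inj] at h ⊢
    tauto
  · simp only [supd]; omega
  · induction i using b1_he <;> simp [refF_0, refF_1, refF_2, refF_3] <;> rfl

theorem pot_sym {Φ : Fn → Fn} {ε : HE → ℝ} {ρ : HE → HE} {c : ℝ} (h1 : ∀ i, ε i = 1 ∨ ε i = -1)
    (h2 : Function.Injective ρ) (h3 : ∀ i j, supd (ρ i).1 (ρ j).1 = supd i.1 j.1) (h4 : ∀ s i, Φ s i = ε i * s (ρ i))
    (h5 : ∀ s, opA wPl (Φ s) = c • Φ (opA wPl s)) (i j : HE) : ε i * Φ (gPl (ρ i)) j = c * gPl i j := by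
  obtain ⟨K, hK⟩ := gPl_bound
  refine gPl_unique (s := ε i • Φ (gPl (ρ i))) (C := K) (fun k => ?_) (fun k => ?_) j
  · rw [opA_smul, h5, Pi.smul_apply, Pi.smul_apply, h4, gPl_ker.2]
    simp only [h2.eq_iff]
    split_ifs with h
    · rw [h]; rcases h1 i with e | e <;> simp [e]
    · simp
  · rw [Pi.smul_apply, h4, ← h3]
    rcases h1 i with e | e <;> rcases h1 k with e' | e' <;> simpa [e, e'] using hK (ρ i) (ρ k)


/-- `gPl_unique` for `s = ε i • rotF (gPl (ρ i))`, `opA_rotF` -/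
theorem gPl_rot (i j : HE) : rotF (fun k => rotF (gPl k) j) i = gPl i j := by
  obtain ⟨ε, ρ, h1, h2, h3, h4⟩ := rotF_eq
  rw [h4]
  exact (pot_sym (c := 1) h1 h2 h3 h4 (fun s => by rw [opA_rotF, one_smul]) i j).trans (one_mul _)

theorem gPl_ref (i j : HE) : refF (fun k => refF (gPl k) j) i = -gPl i j := by
  obtain ⟨ε, ρ, h1, h2, h3, h4⟩ := refF_eq
  rw [h4]
  exact (pot_sym (c := -1) h1 h2 h3 h4 (fun s => by rw [opA_refF, neg_one_smul]) i j).trans (neg_one_mul _)

end Crest.Agent.R165
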