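import Crest.Agent.R165.B.Alg

/-! # R165/B2, part 0: the lattice Laplacian, boxes, maximum principle, summation by parts (owner helper81) -/

set_option autoImplicit false
noncomputable section
open Classical

namespace Crest.Agent.R165

def lap (u : Site → ℝ) (x : Site) : ℝ := ∑ α : Fin 4, (u (x + dv α) - u x)

theorem add_dv0 (x : Site) : x + dv 0 = (x.1 + 1, x.2) := Prod.ext rfl (add_zero _)
theorem add_dv1 (x : Site) : x + dv 1 = (x.1, x.2 + 1) := Prod.ext (add_zero _) rfl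
theorem add_dv2 (x : Site) : x + dv 2 = (x.1 - 1, x.2) := Prod.ext rfl (add_zero _)
theorem add_dv3 (x : Site) : x + dv 3 = (x.1, x.2 - 1) := Prod.ext (add_zero _) rfl

theorem add_dv_cases (x : Site) (α : Fin 4) : x + dv α = (x.1 + 1, x.2) ∨ x + dv α = (x.1, x.2 + 1) ∨
    x + dv α = (x.1 - 1, x.2) ∨ x + dv α = (x.1, x.2 - 1) := by
  fin_cases α
  exacts [Or.inl (add_dv0 x), Or.inr (Or.inl (add_dv1 x)), Or.inr (Or.inr (Or.inl (add_dv2 x))),
    Or.inr (Or.inr (Or.inr (add_dv3 x)))]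

theorem dv_add_two (α : Fin 4) : dv (α + 2) = -dv α := by
  fin_cases α <;> rfl

theorem lap_eq (u : Site → ℝ) (x : Site) :
    lap u x = u (x.1 + 1, x.2) + u (x.1, x.2 + 1) + u (x.1 - 1, x.2) + u (x.1, x.2 - 1) - 4 * u x := by
  rw [lap, Fin.sum_univ_four, add_dv0, add_dv1, add_dv2, add_dv3]
  ring

theorem lap_add (u v : Site → ℝ) (x : Site) : lap (fun y => u y + v y) x = lap u x + lap v x := by
  simp only [lap_eq]; ring

theorem lap_sub (u v : Site → ℝ) (x : Site) : lap (fun y => u y - v y) x = lap u x - lap v x := by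
  simp only [lap_eq]; ring

theorem lap_neg (u : Site → ℝ) (x : Site) : lap (fun y => -u y) x = -lap u x := by
  simp only [lap_eq]; ring

theorem lap_const_mul (c : ℝ) (u : Site → ℝ) (x : Site) : lap (fun y => c * u y) x = c * lap u x := by
  simp only [lap_eq]; ring

theorem lap_const (c : ℝ) (x : Site) : lap (fun _ => c) x = 0 := by
  simp only [lap_eq]; ring

theorem lap_shift (u : Site → ℝ) (a x : Site) : lap (fun y => u (y + a)) x = lap u (x + a) := by
  simp only [lap, add_right_comm]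

theorem lap_sum {β : Type} (s : Finset β) (u : β → Site → ℝ) (x : Site) :
    lap (fun y => ∑ b ∈ s, u b y) x = ∑ b ∈ s, lap (u b) x := by
  simp only [lap, ← Finset.sum_sub_distrib]
  exact Finset.sum_comm

theorem supd_le {x y : Site} {R : ℕ} :
    supd y x ≤ R ↔ x.1 - R ≤ y.1 ∧ y.1 ≤ x.1 + R ∧ x.2 - R ≤ y.2 ∧ y.2 ≤ x.2 + R := by
  unfold supd; omega

theorem mem_box' {x y : Site} {R : ℕ} :
    y ∈ box x R ↔ x.1 - R ≤ y.1 ∧ y.1 ≤ x.1 + R ∧ x.2 - R ≤ y.2 ∧ y.2 ≤ x.2 + R := by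
  simp only [box, Finset.mem_product, Finset.mem_Icc, and_assoc]

theorem mem_box_supd {x y : Site} {R : ℕ} : y ∈ box x R ↔ supd y x ≤ R := mem_box'.trans supd_le.symm

theorem mem_box {x y : Site} {R : ℕ} : y ∈ box x R ↔ supd y x ≤ R := mem_box_supd

theorem self_mem_box (x : Site) (R : ℕ) : x ∈ box x R := by
  rw [mem_box']; omega

theorem card_box (x : Site) (R : ℕ) : (box x R).card = (2 * R + 1) ^ 2 := by
  rw [box, Finset.card_product, Int.card_Icc, Int.card_Icc, sq]
  congr 1 <;> omega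

theorem supd_self (x : Site) : supd x x = 0 := by simp [supd]

theorem supd_comm (x y : Site) : supd x y = supd y x := by unfold supd; omega

theorem supd_triangle (x y z : Site) : supd x z ≤ supd x y + supd y z := by unfold supd; omega

theorem supd_sub (x y : Site) : supd (x - y) 0 = supd x y := by simp [supd]

theorem supd_add (x y a : Site) : supd (x + a) (y + a) = supd x y := by simp [supd]

theorem supd_dv (x : Site) (α : Fin 4) : supd (x + dv α) x = 1 := by
  rcases add_dv_cases x α with h | h | h | h <;> rw [h] <;> simp [supd]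

theorem box_mono (x : Site) {r R : ℕ} (h : r ≤ R) : box x r ⊆ box x R := fun _ hy =>
  mem_box_supd.2 ((mem_box_supd.1 hy).trans h)

theorem box_subset_box {x z : Site} {n R N : ℕ} (hz : z ∈ box x n) (h : n + R ≤ N) : box z R ⊆ box x N := fun y hy => by
  rw [mem_box_supd] at *
  have := supd_triangle y z x
  omega

theorem add_dv_mem_box' {x y : Site} {R : ℕ} (hy : y ∈ box x R) (α : Fin 4) : y + dv α ∈ box x (R + 1) :=
  box_subset_box hy le_rfl (mem_box_supd.2 (supd_dv y α).le)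

theorem add_dv_mem_box {x y : Site} {R : ℕ} (hy : y ∈ box x R) (α : Fin 4) : y + dv α ∈ box x (R + 1) :=
  add_dv_mem_box' hy α

theorem add_mem_box {x y a : Site} {R : ℕ} : y + a ∈ box (x + a) R ↔ y ∈ box x R := by
  rw [mem_box_supd, mem_box_supd, supd_add]

theorem max_principle (W : Finset Site) (u : Site → ℝ) (M : ℝ) (hu : ∀ x ∈ W, 0 ≤ lap u x)
    (hb : ∀ x ∈ W, ∀ α, x + dv α ∉ W → u (x + dv α) ≤ M) : ∀ x ∈ W, u x ≤ M := by
  intro x hx
  by_contra hlt
  obtain ⟨y, hy, hmax⟩ := W.exists_max_image u ⟨x, hx⟩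
  obtain ⟨z, hz, hz1⟩ := (W.filter fun z => u z = u y).exists_max_image Prod.fst ⟨y, by simp [hy]⟩
  obtain ⟨hzW, hzu⟩ := Finset.mem_filter.1 hz
  have hM : M < u y := (not_le.1 hlt).trans_le (hmax x hx)
  have hle : ∀ α, u (z + dv α) - u z ≤ 0 := fun α => by
    by_cases h : z + dv α ∈ W
    · linarith [hmax _ h]
    · linarith [hb z hzW α h]
  have h0 := hu z hzW
  rw [lap, Fin.sum_univ_four] at h0
  have e : u (z + dv 0) = u y := by linarith [hle 0, hle 1, hle 2, hle 3]
  by_cases h : z + dv 0 ∈ W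
  · have := hz1 _ (Finset.mem_filter.2 ⟨h, e⟩)
    rw [add_dv0] at this
    simp at this
  · linarith [hb z hzW 0 h]

/-- a harmonic function that tends to zero vanishes -/
theorem harm_decay {u : Site → ℝ} (hu : ∀ x, lap u x = 0)
    (hd : ∀ ε > 0, ∃ R : ℕ, ∀ x, x ∉ box 0 R → |u x| ≤ ε) (x : Site) : u x = 0 := by
  refine abs_nonpos_iff.1 (le_of_forall_pos_le_add fun ε hε => ?_)
  obtain ⟨R, hR⟩ := hd ε hε
  rw [zero_add]
  by_cases hx : x ∈ box 0 R
  · refine abs_le.2 ⟨?_, max_principle _ u ε (fun y _ => (hu y).ge)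
      (fun y _ α h => (abs_le.1 (hR _ h)).2) x hx⟩
    have := max_principle _ (fun y => -u y) ε (fun y _ => by rw [lap_neg, hu, neg_zero])
      (fun y _ α h => by linarith [(abs_le.1 (hR _ h)).1]) x hx
    linarith
  · exact hR x hx

/-- `C / (supd x z + 1)` tends to zero -/
theorem decay_of_bound (C : ℝ) (z : Site) {ε : ℝ} (hε : 0 < ε) :
    ∃ R : ℕ, ∀ x, x ∉ box 0 R → C / (supd x z + 1) ≤ ε := by
  obtain ⟨n, hn⟩ := exists_nat_ge (C / ε)
  refine ⟨n + supd z 0, fun x hx => ?_⟩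
  rw [mem_box_supd] at hx
  have h1 := supd_triangle x z 0
  have h2 : (n : ℝ) ≤ supd x z + 1 := by exact_mod_cast (by omega : n ≤ supd x z + 1)
  rw [div_le_iff₀ (by positivity)]
  rw [div_le_iff₀ hε] at hn
  nlinarith

theorem harm_decay' {u : Site → ℝ} (hu : ∀ x, lap u x = 0) {C : ℝ} {z : Site}
    (hd : ∀ x, |u x| ≤ C / (supd x z + 1)) (x : Site) : u x = 0 :=
  harm_decay hu (fun _ hε => (decay_of_bound C z hε).imp fun _ h y hy => (hd y).trans (h y hy)) x

/-- summation by parts -/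
theorem lap_green (φ u : Site → ℝ) (x : Site) (R : ℕ) (hφ : ∀ y, y ∉ box x R → φ y = 0) :
    ∑ y ∈ box x R, φ y * lap u y = ∑ y ∈ box x (R + 1), lap φ y * u y := by
  have h1 : ∀ α, ∑ y ∈ box x R, φ y * u (y + dv α) = ∑ y ∈ box x (R + 1), φ (y + dv (α + 2)) * u y := fun α => by
    refine Finset.sum_bij_ne_zero (fun y _ _ => y + dv α) (fun y hy _ => add_dv_mem_box' hy α)
      (fun _ _ _ _ _ _ h => add_right_cancel h) (fun y hy h => ?_) (fun y _ _ => by rw [dv_add_two]; simp)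
    have h2 : y + dv (α + 2) + dv α = y := by rw [dv_add_two]; simp
    refine ⟨y + dv (α + 2), by_contra fun hn => h (by rw [hφ _ hn, zero_mul]), by rwa [h2], h2⟩
  have h2 : ∑ y ∈ box x R, φ y * u y = ∑ y ∈ box x (R + 1), φ y * u y :=
    Finset.sum_subset (box_mono x R.le_succ) fun y _ hy => by rw [hφ y hy, zero_mul]
  simp only [lap, Finset.mul_sum, Finset.sum_mul, mul_sub, sub_mul]
  rw [Finset.sum_comm, Finset.sum_comm (s := box x (R + 1))]
  simp only [Finset.sum_sub_distrib, h1, h2]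
  congr 1
  exact Equiv.sum_comp (Equiv.addRight (2 : Fin 4)) fun α => ∑ y ∈ box x (R + 1), φ (y + dv α) * u y

/-- telescoping along an interval -/
theorem abs_sub_le_sum (f : ℤ → ℝ) {a b k l : ℤ} (hk : k ∈ Finset.Icc a b) (hl : l ∈ Finset.Icc a b) :
    |f k - f l| ≤ ∑ j ∈ Finset.Ico a b, |f (j + 1) - f j| := by
  wlog h : l ≤ k generalizing k l
  · rw [abs_sub_comm]; exact this hl hk (not_le.1 h).le
  rw [Finset.mem_Icc] at hk hl
  have h1 : ∀ m, l ≤ m → |f m - f l| ≤ ∑ j ∈ Finset.Ico l m, |f (j + 1) - f j| := by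
    intro m hm
    induction m, hm using Int.leInduction with
    | base => simp
    | succ m hm ih =>
      rw [← Finset.insert_Ico_right_eq_Ico_add_one hm, Finset.sum_insert (by simp)]
      linarith [abs_sub_le (f (m + 1)) (f m) (f l)]
  exact (h1 k h).trans (Finset.sum_le_sum_of_subset_of_nonneg (Finset.Ico_subset_Ico hl.1 hk.2)
    fun _ _ _ => abs_nonneg _)

theorem lip_int (f : ℤ → ℝ) {a b k l : ℤ} {δ : ℝ} (hk : k ∈ Finset.Icc a b) (hl : l ∈ Finset.Icc a b)
    (h : ∀ j, a ≤ j → j < b → |f (j + 1) - f j| ≤ δ) : |f k - f l| ≤ ((b - a : ℤ) : ℝ) * δ := by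
  refine (abs_sub_le_sum f hk hl).trans ((Finset.sum_le_card_nsmul _ _ δ fun j hj =>
    h j (Finset.mem_Ico.1 hj).1 (Finset.mem_Ico.1 hj).2).trans_eq ?_)
  rw [Finset.mem_Icc] at hk
  rw [Int.card_Ico, nsmul_eq_mul, ← Int.cast_natCast, Int.toNat_of_nonneg (by omega)]

/-- a gradient bound on a box bounds the oscillation -/
theorem lip_box (u : Site → ℝ) {z y : Site} {r : ℕ} {g : ℝ} (hy : y ∈ box z r)
    (h : ∀ w ∈ box z r, ∀ α, |u (w + dv α) - u w| ≤ g) : |u y - u z| ≤ 4 * r * g := by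
  rw [mem_box'] at hy
  have h1 := lip_int (fun k => u (k, y.2)) (a := z.1 - r) (b := z.1 + r) (k := y.1) (l := z.1) (δ := g)
    (Finset.mem_Icc.2 (by omega)) (Finset.mem_Icc.2 (by omega)) fun j h1 h2 => by
      have := h (j, y.2) (mem_box'.2 (by simp only; omega)) 0
      rwa [add_dv0] at this
  have h2 := lip_int (fun k => u (z.1, k)) (a := z.2 - r) (b := z.2 + r) (k := y.2) (l := z.2) (δ := g)
    (Finset.mem_Icc.2 (by omega)) (Finset.mem_Icc.2 (by omega)) fun j h1 h2 => by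
      have := h (z.1, j) (mem_box'.2 (by simp only; omega)) 1
      rwa [add_dv1] at this
  push_cast at h1 h2
  have := abs_sub_le (u y) (u (z.1, y.2)) (u z)
  linarith

end Crest.Agent.R165
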