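import Crest.Agent.R165.B.Pot0

/-! # R165/B2, part 1: gradient estimate by reflection (owner helper81) -/

set_option autoImplicit false
noncomputable section
open Classical

namespace Crest.Agent.R165

theorem pot1_one (u : Site → ℝ) (R : ℕ) (M δ : ℝ) (hR : 1 ≤ R) (hl : ∀ y ∈ box 0 R, |lap u y| ≤ δ)
    (hM : ∀ y ∈ box 0 (R + 1), |u y| ≤ M) : u (1, 0) - u 0 ≤ 2 * M / R + δ * R := by
  have hR' : (1 : ℝ) ≤ R := by exact_mod_cast hR
  have hM0 : 0 ≤ M := (abs_nonneg _).trans (hM 0 (self_mem_box _ _))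
  have hδ : 0 ≤ δ := (abs_nonneg _).trans (hl 0 (self_mem_box _ _))
  obtain ⟨A, hA⟩ : ∃ A : ℝ, A = 2 * M / (R : ℝ) ^ 2 := ⟨_, rfl⟩
  have hA0 : 0 ≤ A := by rw [hA]; positivity
  have hA1 : A * (R : ℝ) ^ 2 = 2 * M := by rw [hA]; field_simp
  obtain ⟨q, hq⟩ : ∃ q : ℤ → ℝ, q = fun k : ℤ => (R : ℝ) * (2 * k - 1) - k * (k - 1) := ⟨_, rfl⟩
  obtain ⟨w, hw⟩ : ∃ w : Site → ℝ, w = fun y : Site =>
    u y - u (1 - y.1, y.2) - (A * ((y.2 : ℝ) ^ 2 + q y.1) + δ * q y.1) := ⟨_, rfl⟩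
  have hq0 : ∀ k : ℤ, 1 ≤ k → k ≤ R + 1 → 0 ≤ q k := fun k h1 h2 => by
    have h1' : (1 : ℝ) ≤ k := by exact_mod_cast h1
    have h2' : (k : ℝ) ≤ R + 1 := by exact_mod_cast h2
    rw [hq]; nlinarith
  have hlw : ∀ y : Site, 1 ≤ y.1 → y ∈ box 0 R → 0 ≤ lap w y := fun y h1 hy => by
    have e : lap w y = lap u y - lap u (1 - y.1, y.2) + 2 * δ := by
      simp only [hw, hq, lap_eq]; push_cast; ring_nf
    have h2 := hl (1 - y.1, y.2) (by rw [mem_box'] at *; simp at *; omega)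
    linarith [(abs_le.1 (hl y hy)).1, (abs_le.1 h2).2]
  have hodd : ∀ t : ℤ, w (0, t) + w (1, t) ≤ 0 := fun t => by
    have : 0 ≤ A * (t : ℝ) ^ 2 := by positivity
    simp only [hw, hq]; push_cast; ring_nf; linarith
  have hbd : ∀ y : Site, 1 ≤ y.1 → y ∈ box 0 (R + 1) → y ∉ box 0 R → w y ≤ 0 := fun y h1 hy hn => by
    have h2 := hM (1 - y.1, y.2) (by rw [mem_box'] at *; simp at *; omega)
    have h3 : 0 ≤ q y.1 := hq0 _ h1 (by rw [mem_box'] at hy; simpa using hy.2.1)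
    have h4 : (R : ℝ) ^ 2 ≤ (y.2 : ℝ) ^ 2 + q y.1 := by
      rw [mem_box'] at hy hn
      have : y.1 = R + 1 ∨ y.2 = R + 1 ∨ y.2 = -(R + 1) := by simp at hy hn; omega
      rcases this with h | h | h
      · rw [h, hq]; push_cast; nlinarith [sq_nonneg (y.2 : ℝ)]
      · rw [h]; push_cast; nlinarith
      · rw [h]; push_cast; nlinarith
    have h5 := mul_le_mul_of_nonneg_left h4 hA0
    have h6 := mul_nonneg hδ h3
    simp only [hw]
    linarith [(abs_le.1 (hM y hy)).2, (abs_le.1 h2).1]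
  obtain ⟨p, hp⟩ : ∃ p : Site → ℝ, p = fun y => if y.1 ≤ 0 then 0 else max (w y) 0 := ⟨_, rfl⟩
  have hp0 : ∀ y, 0 ≤ p y := fun y => by simp only [hp]; split_ifs <;> simp
  have hp1 : ∀ y : Site, 1 ≤ y.1 → w y ≤ p y := fun y h => by
    simp only [hp]; rw [if_neg (by omega)]; exact le_max_left _ _
  have h := max_principle ((box 0 R).filter fun y => 1 ≤ y.1) p 0 (fun y hy => ?_) (fun y hy α hn => ?_) (1, 0)
    (by simp [mem_box']; omega)
  · have h1 := (hp1 (1, 0) le_rfl).trans h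
    have h2 : A * R = 2 * M / R := by rw [hA]; field_simp
    simp only [hw, hq] at h1
    push_cast at h1
    rw [← h2]
    have e : ((0 : ℤ), (0 : ℤ)) = (0 : Site) := rfl
    rw [e] at h1
    linarith
  · obtain ⟨hy, h1⟩ := Finset.mem_filter.1 hy
    rcases le_or_gt (w y) 0 with h0 | h0
    · have : p y = 0 := by simp only [hp]; rw [if_neg (by omega), max_eq_right h0]
      rw [lap, this]
      exact Finset.sum_nonneg fun α _ => by simpa using hp0 _
    · have e : p y = w y := by simp only [hp]; rw [if_neg (by omega), max_eq_left h0.le]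
      refine (hlw y h1 hy).trans (Finset.sum_le_sum fun α _ => ?_)
      rw [e]
      by_cases h2 : 1 ≤ (y + dv α).1
      · linarith [hp1 _ h2]
      · have h3 : y = (1, y.2) ∧ y + dv α = (0, y.2) := by
          rcases add_dv_cases y α with h | h | h | h <;> rw [h] at h2 ⊢ <;> simp [Prod.ext_iff] at h2 ⊢ <;> omega
        have := hodd y.2
        rw [← h3.1, ← h3.2] at this
        linarith [hp0 (y + dv α)]
  · obtain ⟨hy, h1⟩ := Finset.mem_filter.1 hy
    simp only [hp]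
    split_ifs with h2
    · exact le_rfl
    · exact max_le (hbd _ (by omega) (add_dv_mem_box' hy α) fun h3 => hn (Finset.mem_filter.2 ⟨h3, by omega⟩)) le_rfl


/-- gradient estimate with a right-hand side -/
theorem grad_rhs (u : Site → ℝ) (x : Site) (R : ℕ) (M δ : ℝ) (hR : 1 ≤ R) (hl : ∀ y ∈ box x R, |lap u y| ≤ δ)
    (hM : ∀ y ∈ box x (R + 1), |u y| ≤ M) (α : Fin 4) : |u (x + dv α) - u x| ≤ 2 * M / R + δ * R := by
  have key : ∀ (τ : Site → Site), (∀ (v : Site → ℝ) y, lap (fun z => v (τ z)) y = lap v (τ y)) →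
      (∀ y, supd (τ y) x = supd y 0) → |u (τ (1, 0)) - u (τ 0)| ≤ 2 * M / R + δ * R := fun τ h1 h2 => by
    have h3 : ∀ (n : ℕ) y, y ∈ box 0 n → τ y ∈ box x n := fun n y hy => by rwa [mem_box_supd, h2, ← mem_box_supd]
    refine abs_le.2 ⟨?_, pot1_one (fun z => u (τ z)) R M δ hR (fun y hy => by rw [h1]; exact hl _ (h3 _ _ hy))
      fun y hy => hM _ (h3 _ _ hy)⟩
    have := pot1_one (fun z => -u (τ z)) R M δ hR
      (fun y hy => by rw [lap_neg, h1, abs_neg]; exact hl _ (h3 _ _ hy))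
      fun y hy => by rw [abs_neg]; exact hM _ (h3 _ _ hy)
    linarith
  rcases add_dv_cases x α with h | h | h | h <;> rw [h]
  · simpa using key (fun z => (x.1 + z.1, x.2 + z.2)) (fun v y => by simp only [lap_eq]; ring_nf)
      fun y => by simp [supd]
  · simpa using key (fun z => (x.1 + z.2, x.2 + z.1)) (fun v y => by simp only [lap_eq]; ring_nf)
      fun y => by simp [supd, max_comm]
  · simpa using key (fun z => (x.1 - z.1, x.2 + z.2)) (fun v y => by simp only [lap_eq]; ring_nf)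
      fun y => by simp [supd]
  · simpa using key (fun z => (x.1 + z.2, x.2 - z.1)) (fun v y => by simp only [lap_eq]; ring_nf)
      fun y => by simp [supd, max_comm]

/-- gradient estimate for harmonic functions -/
theorem grad_harm : ∃ C : ℝ, ∀ (u : Site → ℝ) (x : Site) (R : ℕ) (M : ℝ), 1 ≤ R →
    (∀ y ∈ box x R, lap u y = 0) → (∀ y ∈ box x (R + 1), |u y| ≤ M) → ∀ α, |u (x + dv α) - u x| ≤ C * M / R :=
  ⟨2, fun u x R M hR hl hM α => by
    simpa using grad_rhs u x R M 0 hR (fun y hy => by rw [hl y hy, abs_zero]) hM α⟩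

end Crest.Agent.R165
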