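import Crest.Agent.R165.B.Pot0

/-! # R165/B2, part 2: the potential kernel, built from its gradient (the dipole).
The dipole `D` is odd under the reflection `x ↦ (-1 - x.1, x.2)`; on the half plane `0 ≤ x.1` it is a fixed point of a monotone map
squeezed between `0` and a multiple of the barrier `dipB`. -/

set_option autoImplicit false
noncomputable section
open Classical

namespace Crest.Agent.R165

/-- Knaster–Tarski on the order interval (`OrderHom.lfp`, `OrderHom.map_lfp` on the complete lattice `Set.Icc lo hi`,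
instance needs `Fact (lo ≤ hi)`) -/
theorem perron (T : (Site → ℝ) → Site → ℝ) (hT : Monotone T) {lo hi : Site → ℝ} (h : lo ≤ hi) (h1 : lo ≤ T lo)
    (h2 : T hi ≤ hi) : ∃ f, lo ≤ f ∧ f ≤ hi ∧ T f = f := by
  have : Fact (lo ≤ hi) := ⟨h⟩
  let S : Set.Icc lo hi →o Set.Icc lo hi :=
    ⟨fun f => ⟨T f, h1.trans (hT f.2.1), (hT f.2.2).trans h2⟩, fun f g e => hT e⟩
  exact ⟨S.lfp, S.lfp.2.1, S.lfp.2.2, congrArg Subtype.val S.map_lfp⟩

def dipB (x : Site) : ℝ := ((x.1 : ℝ) + 1) / (((x.1 : ℝ) + 2) ^ 2 + (x.2 : ℝ) ^ 2)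

/-- With `X = x.1 ≥ 0`, `Y = x.2 ^ 2`, `p = X + 2`, `ρ = p² + Y`, `σ = ρ + 1`:
`lap = (2σ(p-1) - 4p)/(σ² - 4p²) + 2σ(p-1)/(σ² - 4Y) - 4(p-1)/ρ = -N / (ρ (σ² - 4p²)(σ² - 4Y))` where
`N = 4X⁶ + 44X⁵ + 212X⁴ + 12X⁴Y + 576X³ + 136X³Y + 932X² + 488X²Y + 12X²Y² + 852X + 704XY + 28XY² + 340 + 356Y + 20Y² + 4Y³`
(`lap_eq`, `push_cast`, show the equality by `field_simp; ring`, then `positivity`). -/
theorem lap_dipB {x : Site} (hx : 0 ≤ x.1) : lap dipB x ≤ 0 := by
  obtain ⟨a, b⟩ := x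
  have ha : (0 : ℝ) ≤ a := by exact_mod_cast hx
  simp only [lap_eq, dipB]
  push_cast
  generalize (a : ℝ) = X at ha
  generalize (b : ℝ) = y
  have e : (X + 1 + 1) / ((X + 1 + 2) ^ 2 + y ^ 2) + (X + 1) / ((X + 2) ^ 2 + (y + 1) ^ 2) +
      (X - 1 + 1) / ((X - 1 + 2) ^ 2 + y ^ 2) + (X + 1) / ((X + 2) ^ 2 + (y - 1) ^ 2) -
      4 * ((X + 1) / ((X + 2) ^ 2 + y ^ 2)) =
      -((4 * X ^ 6 + 44 * X ^ 5 + 212 * X ^ 4 + 12 * X ^ 4 * y ^ 2 + 576 * X ^ 3 + 136 * X ^ 3 * y ^ 2 + 932 * X ^ 2 +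
        488 * X ^ 2 * y ^ 2 + 12 * X ^ 2 * y ^ 4 + 852 * X + 704 * X * y ^ 2 + 28 * X * y ^ 4 + 340 + 356 * y ^ 2 +
        20 * y ^ 4 + 4 * y ^ 6) / (((X + 3) ^ 2 + y ^ 2) * ((X + 2) ^ 2 + (y + 1) ^ 2) * ((X + 1) ^ 2 + y ^ 2) *
        ((X + 2) ^ 2 + (y - 1) ^ 2) * ((X + 2) ^ 2 + y ^ 2))) := by
    rw [show X + 1 + 2 = X + 3 by ring, show X - 1 + 2 = X + 1 by ring]
    field_simp
    ring
  rw [e, neg_nonpos]
  positivity

theorem dipB_le {x : Site} (hx : 0 ≤ x.1) : 0 ≤ dipB x ∧ dipB x ≤ 2 / (supd x 0 + 1) := by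
  have ha : (0 : ℝ) ≤ x.1 := by exact_mod_cast hx
  refine ⟨by unfold dipB; positivity, ?_⟩
  have h : (supd x 0 : ℤ) = x.1 ∨ (supd x 0 : ℤ) = x.2 ∨ (supd x 0 : ℤ) = -x.2 := by
    simp only [supd, Prod.fst_zero, Prod.snd_zero]; omega
  rw [dipB, div_le_div_iff₀ (by positivity) (by positivity), ← Int.cast_natCast]
  rcases h with h | h | h <;> rw [h] <;> push_cast <;>
    nlinarith [sq_nonneg ((x.1 : ℝ) + 1 - x.2), sq_nonneg ((x.1 : ℝ) + 1 + x.2), sq_nonneg (x.2 : ℝ)]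

/-- `perron` with `T f x = if 0 ≤ x.1 then (f (x.1+1,x.2) + f (x.1,x.2+1) + f (x.1,x.2-1) + (if 1 ≤ x.1 then f (x.1-1,x.2) else 0)
+ (if x = 0 then 1 else 0)) / (if 1 ≤ x.1 then 4 else 5) else 0`, `lo = 0`, `hi x = if 0 ≤ x.1 then 4 * dipB x else 0`
(`dipB (-1, y) = 0`, `dipB 0 = 1/4`). -/
theorem exists_half : ∃ f : Site → ℝ, (∀ x, 0 ≤ x.1 → |f x| ≤ 8 / (supd x 0 + 1)) ∧
    (∀ x, 1 ≤ x.1 → lap f x = 0) ∧
    ∀ y : ℤ, f (1, y) + f (0, y + 1) + f (0, y - 1) - 5 * f (0, y) = if y = 0 then -1 else 0 := by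
  obtain ⟨hi, hhi⟩ : ∃ hi : Site → ℝ, ∀ x, hi x = if 0 ≤ x.1 then 4 * dipB x else 0 := ⟨_, fun _ => rfl⟩
  have hi0 : ∀ x, 0 ≤ hi x := fun x => by
    rw [hhi]
    split_ifs with h
    exacts [by linarith [(dipB_le h).1], le_rfl]
  obtain ⟨f, h0, h1, hf⟩ := perron (fun f x => if 0 ≤ x.1 then (f (x.1 + 1, x.2) + f (x.1, x.2 + 1) + f (x.1, x.2 - 1) +
      (if 1 ≤ x.1 then f (x.1 - 1, x.2) else 0) + (if x = 0 then 1 else 0)) / (if 1 ≤ x.1 then 4 else 5) else 0)
    (fun f g e x => by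
      have := e (x.1 + 1, x.2); have := e (x.1, x.2 + 1); have := e (x.1, x.2 - 1); have := e (x.1 - 1, x.2)
      simp only
      split_ifs <;> linarith) (lo := 0) (hi := hi) hi0
    (fun x => by simp only [Pi.zero_apply]; split_ifs <;> norm_num)
    (fun x => by
      by_cases hx : 0 ≤ x.1
      · have h2 := lap_dipB hx
        rw [lap_eq] at h2
        simp only [hhi, if_pos hx, if_pos (show 0 ≤ x.1 + 1 by omega)]
        by_cases h1 : 1 ≤ x.1
        · have : x ≠ 0 := by rintro rfl; simp at h1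
          simp only [if_pos h1, if_neg this, if_pos (show 0 ≤ x.1 - 1 by omega)]
          linarith
        · have h3 : dipB (x.1 - 1, x.2) = 0 := by simp [dipB, show x.1 = 0 by omega]
          have h4 : (if x = 0 then 1 else 0) ≤ 4 * dipB x := by
            split_ifs with h
            · rw [h]; norm_num [dipB]
            · linarith [(dipB_le hx).1]
          simp only [if_neg h1]
          linarith
      · simp only [if_neg hx]
        exact hi0 x)
  refine ⟨f, fun x hx => ?_, fun x hx => ?_, fun y => ?_⟩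
  · have := h1 x
    rw [hhi, if_pos hx] at this
    rw [abs_of_nonneg (h0 x)]
    calc f x ≤ 4 * (2 / (supd x 0 + 1)) := by linarith [(dipB_le hx).2]
      _ = _ := by ring
  · have h := congrFun hf x
    have : x ≠ 0 := by rintro rfl; simp at hx
    simp only [if_pos hx, if_neg this, if_pos (show 0 ≤ x.1 by omega)] at h
    rw [lap_eq]; linarith
  · have h := congrFun hf (0, y)
    simp only [le_refl, if_true, zero_add, show ¬ (1 : ℤ) ≤ 0 by omega, if_false, Prod.mk_eq_zero, true_and] at h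
    split_ifs at h ⊢ <;> linarith

/-- odd extension `D x = if 0 ≤ x.1 then f x else -f (-1 - x.1, x.2)` -/
theorem exists_dipole : ∃ (D : Site → ℝ) (C : ℝ),
    (∀ x, lap D x = (if x = (-1, 0) then 1 else 0) - (if x = 0 then 1 else 0)) ∧
    ∀ x, |D x| ≤ C / (supd x 0 + 1) := by
  obtain ⟨f, h1, h2, h3⟩ := exists_half
  refine ⟨fun x => if 0 ≤ x.1 then f x else -f (-1 - x.1, x.2), 16, fun ⟨a, b⟩ => ?_, fun x => ?_⟩
  · simp only [lap_eq, Prod.mk.injEq, Prod.mk_eq_zero]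
    rcases (by omega : 1 ≤ a ∨ a = 0 ∨ a = -1 ∨ a ≤ -2) with h | rfl | rfl | h
    · have := h2 (a, b) h
      simp only [lap_eq] at this
      simp only [if_pos (show 0 ≤ a by omega), if_pos (show 0 ≤ a + 1 by omega), if_pos (show 0 ≤ a - 1 by omega),
        show ¬ a = -1 by omega, show ¬ a = 0 by omega, false_and, if_false]
      linarith
    · have := h3 b
      norm_num
      split_ifs at this ⊢ <;> linarith
    · have := h3 b
      norm_num
      split_ifs at this ⊢ <;> linarith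
    · have := h2 (-1 - a, b) (by simp only; omega)
      simp only [lap_eq] at this
      simp only [if_neg (show ¬ 0 ≤ a by omega), if_neg (show ¬ 0 ≤ a + 1 by omega), if_neg (show ¬ 0 ≤ a - 1 by omega),
        show ¬ a = -1 by omega, show ¬ a = 0 by omega, false_and, if_false, show -1 - (a + 1) = -1 - a - 1 by ring,
        show -1 - (a - 1) = -1 - a + 1 by ring]
      linarith
  · simp only
    split_ifs with h
    · refine (h1 x h).trans ?_
      gcongr
      norm_num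
    · rw [abs_neg]
      refine (h1 _ (by simp only; omega)).trans ?_
      have : (supd x 0 : ℝ) + 1 ≤ 2 * (supd (-1 - x.1, x.2) 0 + 1) := by
        exact_mod_cast (by simp only [supd, Prod.fst_zero, Prod.snd_zero]; omega :
          supd x 0 + 1 ≤ 2 * (supd (-1 - x.1, x.2) 0 + 1))
      rw [div_le_div_iff₀ (by positivity) (by positivity)]
      linarith

end Crest.Agent.R165
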