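import Crest.Agent.R165.B.Pot2

/-! # R165/B2, part 2b: from the dipole to the potential kernel -/

set_option autoImplicit false
noncomputable section
open Classical

namespace Crest.Agent.R165

/-- a sequence on `ℤ` has a discrete primitive -/
theorem exists_prim_int (d : ℤ → ℝ) : ∃ F : ℤ → ℝ, F 0 = 0 ∧ ∀ k, F (k + 1) - F k = d k := by
  refine ⟨fun k => ∑ j ∈ Finset.Ico 0 k, d j - ∑ j ∈ Finset.Ico k 0, d j, by simp, fun k => ?_⟩
  rcases le_or_gt 0 k with h | h
  · simp only [Finset.Ico_eq_empty_of_le h, Finset.Ico_eq_empty_of_le (show 0 ≤ k + 1 by omega)]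
    rw [← Finset.insert_Ico_right_eq_Ico_add_one h, Finset.sum_insert (by simp)]
    ring
  · simp only [Finset.Ico_eq_empty_of_le h.le, Finset.Ico_eq_empty_of_le (show k + 1 ≤ 0 by omega)]
    rw [← Finset.insert_Ico_add_one_left_eq_Ico h, Finset.sum_insert (by simp)]
    ring

/-- a curl-free field is a gradient: `a x = F₁ x.1 + F₂ x.1 x.2`, primitives of `D1 (·, 0)` and of `D2 (x.1, ·)`;
the first identity by `Int.induction_on` in `x.2` -/
theorem exists_primitive (D1 D2 : Site → ℝ)
    (h : ∀ x : Site, D1 (x.1, x.2 + 1) - D1 x = D2 (x.1 + 1, x.2) - D2 x) :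
    ∃ a : Site → ℝ, ∀ x : Site, a (x.1 + 1, x.2) - a x = D1 x ∧ a (x.1, x.2 + 1) - a x = D2 x := by
  obtain ⟨F, -, hF⟩ := exists_prim_int fun k => D1 (k, 0)
  choose G hG0 hG using fun s : ℤ => exists_prim_int fun k => D2 (s, k)
  refine ⟨fun x => F x.1 + G x.1 x.2, fun ⟨s, t⟩ => ⟨?_, by simp only; linarith [hG s t]⟩⟩
  simp only
  induction t using Int.induction_on with
  | zero => linarith [hF s, hG0 s, hG0 (s + 1)]
  | succ t ih => linarith [hG s t, hG (s + 1) t, h (s, t)]
  | pred t ih =>
    have h1 := hG s (-t - 1)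
    have h2 := hG (s + 1) (-t - 1)
    have h3 := h (s, -t - 1)
    simp only [sub_add_cancel] at h1 h2 h3
    linarith

/-- a function with vanishing gradient is constant -/
theorem const_of_grad {h : Site → ℝ} (h1 : ∀ x : Site, h (x.1 + 1, x.2) = h x) (h2 : ∀ x : Site, h (x.1, x.2 + 1) = h x)
    (x y : Site) : h x = h y := by
  have key : ∀ f : ℤ → ℝ, (∀ k, f (k + 1) = f k) → ∀ k, f k = f 0 := fun f hf k => by
    induction k using Int.induction_on with
    | zero => rfl
    | succ t ih => rw [hf, ih]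
    | pred t ih => rw [← hf, sub_add_cancel, ih]
  have : ∀ z : Site, h z = h (0, 0) := fun z =>
    (key (fun k => h (k, z.2)) (fun k => h1 (k, z.2)) z.1).trans (key (fun k => h (0, k)) (fun k => h2 (0, k)) z.2)
  rw [this x, this y]

/-- potential kernel.  `D1 = D` (`exists_dipole`), `D2 x = D (x.2, x.1)`.  The curl is harmonic and `O(1/|x|)`, so it vanishes
(`harm_decay'`; shifting the argument by a unit vector changes the bound by a factor 2).  Let `a` be the primitive.
`lap a - δ₀` has zero gradient (its gradient is `lap D1 - ∇δ₀`), so it is constant, and it is `O(1/|x|)` (`decay_of_bound`), so it is `0`.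
`x ↦ a (-x) - a x` is harmonic, its two gradients are harmonic and `O(1/|x|)`, so it is constant, `0` at `0`. -/
theorem exists_potKer : ∃ (a : Site → ℝ) (C : ℝ), (∀ x, lap a x = if x = 0 then 1 else 0) ∧
    (∀ x, a (-x) = a x) ∧ ∀ x α, |a (x + dv α) - a x| ≤ C / (supd x 0 + 1) := by
  obtain ⟨D, C, hD, hC⟩ := exists_dipole
  have hC0 : 0 ≤ C := by simpa [supd_self] using (abs_nonneg _).trans (hC 0)
  have hb : ∀ x y : Site, supd x 0 ≤ supd y 0 + 1 → |D y| ≤ 2 * C / (supd x 0 + 1) := fun x y h => by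
    refine (hC y).trans ?_
    have : (supd x 0 : ℝ) ≤ supd y 0 + 1 := by exact_mod_cast h
    rw [div_le_div_iff₀ (by positivity) (by positivity)]
    nlinarith [mul_nonneg hC0 (Nat.cast_nonneg (supd y 0))]
  have h4 : ∀ (x : Site) (p q r s : Site), supd x 0 ≤ supd p 0 + 1 → supd x 0 ≤ supd q 0 + 1 → supd x 0 ≤ supd r 0 + 1 →
      supd x 0 ≤ supd s 0 + 1 → |D p - D q - (D r - D s)| ≤ 8 * C / (supd x 0 + 1) ∧
        |D p - D q + (D r - D s)| ≤ 8 * C / (supd x 0 + 1) := fun x p q r s hp hq hr hs => by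
    have e : 8 * C / (supd x 0 + 1) = 4 * (2 * C / (supd x 0 + 1)) := by ring
    have := abs_le.1 (hb x p hp); have := abs_le.1 (hb x q hq); have := abs_le.1 (hb x r hr); have := abs_le.1 (hb x s hs)
    rw [e]
    constructor <;> rw [abs_le] <;> constructor <;> linarith
  obtain ⟨a, ha⟩ := exists_primitive D (fun x => D (x.2, x.1)) fun x => by
    refine sub_eq_zero.1 (harm_decay' (u := fun x => D (x.1, x.2 + 1) - D x - (D (x.2, x.1 + 1) - D (x.2, x.1)))
      (fun ⟨s, t⟩ => ?_) (C := 8 * C) (z := 0) (fun x => (h4 x _ _ _ _ ?_ ?_ ?_ ?_).1) x)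
    · have e : lap (fun x : Site => D (x.1, x.2 + 1) - D x - (D (x.2, x.1 + 1) - D (x.2, x.1))) (s, t) =
          lap D (s, t + 1) - lap D (s, t) - (lap D (t, s + 1) - lap D (t, s)) := by
        simp only [lap_eq]; ring_nf
      simp only [e, hD, Prod.mk.injEq, Prod.mk_eq_zero]
      split_ifs <;> first | omega | norm_num
    all_goals simp only [supd, Prod.fst_zero, Prod.snd_zero]; omega
  have hg : ∀ x α, |a (x + dv α) - a x| ≤ 2 * C / (supd x 0 + 1) := fun x α => by
    rcases add_dv_cases x α with h | h | h | h <;> rw [h]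
    · rw [(ha x).1]; exact hb x _ (by omega)
    · rw [(ha x).2]; exact hb x _ (by simp only [supd, Prod.fst_zero, Prod.snd_zero]; omega)
    · have := (ha (x.1 - 1, x.2)).1
      simp only [sub_add_cancel] at this
      rw [abs_sub_comm, this]; exact hb x _ (by simp only [supd, Prod.fst_zero, Prod.snd_zero]; omega)
    · have := (ha (x.1, x.2 - 1)).2
      simp only [sub_add_cancel] at this
      rw [abs_sub_comm, this]; exact hb x _ (by simp only [supd, Prod.fst_zero, Prod.snd_zero]; omega)
  have e1 : D = fun x => a (x.1 + 1, x.2) - a x := funext fun x => (ha x).1.symm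
  have e2 : (fun x : Site => D (x.2, x.1)) = fun x => a (x.1, x.2 + 1) - a x := funext fun x => (ha x).2.symm
  have hl : ∀ x, lap a x = if x = 0 then 1 else 0 := by
    have hc := const_of_grad (h := fun x => lap a x - if x = 0 then 1 else 0) (fun ⟨s, t⟩ => by
      have e : lap D (s, t) = lap a (s + 1, t) - lap a (s, t) := by
        rw [e1]; simp only [lap_eq]; ring_nf
      simp only [hD, Prod.mk.injEq, Prod.mk_eq_zero] at e ⊢
      split_ifs at e ⊢ <;> first | omega | linarith) (fun ⟨s, t⟩ => by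
      have e : lap D (t, s) = lap a (s, t + 1) - lap a (s, t) := by
        have : lap D (t, s) = lap (fun x : Site => D (x.2, x.1)) (s, t) := by simp only [lap_eq]; ring
        rw [this, e2]; simp only [lap_eq]; ring_nf
      simp only [hD, Prod.mk.injEq, Prod.mk_eq_zero] at e ⊢
      split_ifs at e ⊢ <;> first | omega | linarith)
    intro x
    refine sub_eq_zero.1 (abs_nonpos_iff.1 (le_of_forall_pos_le_add fun ε hε => ?_))
    obtain ⟨R, hR⟩ := decay_of_bound (4 * (2 * C)) 0 hε
    have hn : ((R + 1 : ℤ), (0 : ℤ)) ∉ box 0 R := by simp [mem_box']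
    rw [hc x (R + 1, 0), if_neg (fun e => hn (by rw [e]; exact self_mem_box _ _)), sub_zero, zero_add]
    refine le_trans ((Finset.abs_sum_le_sum_abs _ _).trans ((Finset.sum_le_sum fun α _ => hg _ α).trans_eq ?_)) (hR _ hn)
    simp only [Finset.sum_const, Finset.card_univ, Fintype.card_fin, nsmul_eq_mul, Nat.cast_ofNat]
    ring
  refine ⟨a, 2 * C, hl, fun x => ?_, hg⟩
  have hh : ∀ x, lap (fun y => a (-y) - a y) x = 0 := fun x => by
    have : lap (fun y => a (-y)) x = lap a (-x) := by
      obtain ⟨s, t⟩ := x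
      simp only [lap_eq, Prod.neg_mk]; ring_nf
    rw [lap_sub, this, hl, hl]
    simp
  have hd : ∀ α x, a (-(x + dv α)) - a (x + dv α) - (a (-x) - a x) = 0 := fun α =>
    harm_decay' (u := fun x => a (-(x + dv α)) - a (x + dv α) - (a (-x) - a x))
      (fun x => by rw [lap_sub, lap_shift (fun y => a (-y) - a y), hh, hh, sub_zero]) (C := 4 * C) (z := 0) fun x => by
      have h1 := abs_le.1 (hg (-x) (α + 2))
      have h2 := abs_le.1 (hg x α)
      rw [dv_add_two, ← neg_add, show supd (-x) 0 = supd x 0 by simp [supd]] at h1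
      have e : 4 * C / (supd x 0 + 1) = 2 * (2 * C / (supd x 0 + 1)) := by ring
      rw [e, abs_le]
      constructor <;> linarith
  have := const_of_grad (h := fun y => a (-y) - a y) (fun y => by rw [← add_dv0]; exact sub_eq_zero.1 (hd 0 y))
    (fun y => by rw [← add_dv1]; exact sub_eq_zero.1 (hd 1 y)) x 0
  simpa [sub_eq_zero] using this

end Crest.Agent.R165
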