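import Crest.Agent.R165.B.Pot0

/-! # R165/B2, part 3: the cut-off -/

set_option autoImplicit false
noncomputable section
open Classical

namespace Crest.Agent.R165

/-- second differences of a function with Lipschitz derivative (`Convex.norm_image_sub_le_of_norm_fderiv_le` or
`lipschitzWith_of_nnnorm_fderiv_le` for `z ↦ G (z + k) - G z`) -/
theorem second_diff_le {G : ℝ × ℝ → ℝ} (hG : Differentiable ℝ G) {L : NNReal} (hL : LipschitzWith L (fderiv ℝ G))
    (z h k : ℝ × ℝ) : |G (z + h + k) - G (z + h) - G (z + k) + G z| ≤ L * ‖h‖ * ‖k‖ := by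
  have hd : ∀ w, HasFDerivAt (fun w => G (w + k) - G w) (fderiv ℝ G (w + k) - fderiv ℝ G w) w := fun w => by
    have h1 : HasFDerivAt (fun w => G (w + k)) (fderiv ℝ G (w + k)) w := by
      have := (hG (w + k)).hasFDerivAt.comp w ((hasFDerivAt_id w).add_const k)
      simpa [Function.comp_def] using this
    exact h1.sub (hG w).hasFDerivAt
  have := (convex_univ (𝕜 := ℝ) (E := ℝ × ℝ)).norm_image_sub_le_of_norm_hasFDerivWithin_le
    (f := fun w => G (w + k) - G w) (C := L * ‖k‖) (fun w _ => (hd w).hasFDerivWithinAt) (fun w _ => by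
      have := hL.norm_sub_le (w + k) w
      simpa using this) (Set.mem_univ z) (Set.mem_univ (z + h))
  rw [Real.norm_eq_abs, add_sub_cancel_left] at this
  calc _ = |G (z + h + k) - G (z + h) - (G (z + k) - G z)| := by congr 1; ring
    _ ≤ L * ‖k‖ * ‖h‖ := this
    _ = _ := by ring

/-- smooth lattice cut-off: `1` on `box x r`, `0` outside `box x (2r)`, differences of order `k ≤ 3` are `O(r^{-k})`.
`χ r y = G (y.1 / r, y.2 / r)`, `G z = g z.1 * g z.2`, `g : ContDiffBump (0 : ℝ) := ⟨1, 2, _, _⟩` (`ContDiffBump.neg`,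
`one_of_mem_closedBall`, `zero_of_le_dist`); `G` and `fderiv ℝ G` are Lipschitz (`ContDiff.lipschitzWith_of_hasCompactSupport`). -/
theorem exists_cutoff : ∃ (χ : ℕ → Site → ℝ) (C : ℝ), ∀ r : ℕ, 1 ≤ r →
    (∀ y, 0 ≤ χ r y ∧ χ r y ≤ 1) ∧ (∀ y ∈ box 0 r, χ r y = 1) ∧ (∀ y, y ∉ box 0 (2 * r) → χ r y = 0) ∧
    (∀ y : Site, χ r (-y) = χ r y ∧ χ r (y.2, -y.1) = χ r y ∧ χ r (y.1, -y.2) = χ r y) ∧
    (∀ y α, |χ r (y + dv α) - χ r y| ≤ C / r) ∧
    (∀ y α β, |χ r (y + dv α + dv β) - χ r (y + dv α) - χ r (y + dv β) + χ r y| ≤ C / (r : ℝ) ^ 2) := by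
  let g : ContDiffBump (0 : ℝ) := ⟨1, 2, one_pos, one_lt_two⟩
  let G : ℝ × ℝ → ℝ := fun z => g z.1 * g z.2
  have hG : ContDiff ℝ 2 G := (g.contDiff.comp contDiff_fst).mul (g.contDiff.comp contDiff_snd)
  have g0 : ∀ t : ℝ, 2 ≤ |t| → g t = 0 := fun t ht => g.zero_of_le_dist (by simpa using ht)
  have g1 : ∀ t : ℝ, |t| ≤ 1 → g t = 1 := fun t ht => g.one_of_mem_closedBall (by simpa using ht)
  have hc : HasCompactSupport G := by
    refine HasCompactSupport.intro (isCompact_closedBall (0 : ℝ × ℝ) 2) fun z hz => ?_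
    rw [mem_closedBall_zero_iff, Prod.norm_def, max_le_iff, not_and_or, Real.norm_eq_abs, Real.norm_eq_abs] at hz
    rcases hz with hz | hz
    · simp only [G, g0 _ (not_le.1 hz).le, zero_mul]
    · simp only [G, g0 _ (not_le.1 hz).le, mul_zero]
  obtain ⟨L1, hL1⟩ := ContDiff.lipschitzWith_of_hasCompactSupport hc hG (by simp)
  obtain ⟨L2, hL2⟩ := ContDiff.lipschitzWith_of_hasCompactSupport (hc.fderiv ℝ) (hG.fderiv_right (m := 1) (by norm_num))
    (by simp)
  have hdG : Differentiable ℝ G := hG.differentiable (by simp)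
  refine ⟨fun r y => G ((y.1 : ℝ) / r, (y.2 : ℝ) / r), L1 + L2, fun r hr => ?_⟩
  have hr0 : (0 : ℝ) < r := by exact_mod_cast hr
  let sc : Site → ℝ × ℝ := fun y => ((y.1 : ℝ) / r, (y.2 : ℝ) / r)
  have sc_add : ∀ y z, sc (y + z) = sc y + sc z := fun y z => by
    simp only [sc, Prod.fst_add, Prod.snd_add, Prod.mk_add_mk, Int.cast_add, add_div]
  have sc_dv : ∀ α, ‖sc (dv α)‖ = 1 / r := fun α => by
    fin_cases α <;> simp [sc, dv, Prod.norm_def]
  refine ⟨fun y => ⟨mul_nonneg g.nonneg g.nonneg, mul_le_one₀ g.le_one g.nonneg g.le_one⟩, fun y hy => ?_,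
    fun y hy => ?_, fun y => ⟨?_, ?_, ?_⟩, fun y α => ?_, fun y α β => ?_⟩
  · rw [mem_box'] at hy
    simp only [Prod.fst_zero, Prod.snd_zero] at hy
    have e : ∀ t : ℤ, 0 - (r : ℤ) ≤ t → t ≤ 0 + (r : ℤ) → |(t : ℝ) / r| ≤ 1 := fun t h1 h2 => by
      rw [abs_div, abs_of_pos hr0, div_le_one hr0]
      have : |t| ≤ (r : ℤ) := abs_le.2 ⟨by omega, by omega⟩
      exact_mod_cast this
    simp only [G, g1 _ (e _ hy.1 hy.2.1), g1 _ (e _ hy.2.2.1 hy.2.2.2), mul_one]
  · rw [mem_box'] at hy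
    simp only [Prod.fst_zero, Prod.snd_zero] at hy
    have e : ∀ t : ℤ, 2 * (r : ℤ) ≤ |t| → 2 ≤ |(t : ℝ) / r| := fun t h1 => by
      rw [abs_div, abs_of_pos hr0, le_div_iff₀ hr0]
      exact_mod_cast h1
    by_cases h : 2 * (r : ℤ) ≤ |y.1|
    · simp only [G, g0 _ (e _ h), zero_mul]
    · have h2 : 2 * (r : ℤ) ≤ |y.2| := by
        rw [not_le, abs_lt] at h
        rw [le_abs]
        push_cast at hy
        omega
      simp only [G, g0 _ (e _ h2), mul_zero]
  · simp only [G, Prod.fst_neg, Prod.snd_neg, Int.cast_neg, neg_div, g.neg]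
  · simp only [G, Int.cast_neg, neg_div, g.neg, mul_comm]
  · simp only [G, Int.cast_neg, neg_div, g.neg]
  · change |G (sc (y + dv α)) - G (sc y)| ≤ _
    have := hL1.norm_sub_le (sc (y + dv α)) (sc y)
    rw [Real.norm_eq_abs, sc_add, add_sub_cancel_left, sc_dv, ← sc_add] at this
    refine this.trans ?_
    rw [mul_one_div]
    gcongr
    exact le_add_of_nonneg_right L2.2
  · change |G (sc (y + dv α + dv β)) - G (sc (y + dv α)) - G (sc (y + dv β)) + G (sc y)| ≤ _
    simp only [sc_add]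
    refine (second_diff_le hdG hL2 _ _ _).trans ?_
    rw [sc_dv, sc_dv, mul_assoc, div_mul_div_comm, one_mul, ← sq, mul_one_div]
    gcongr
    exact le_add_of_nonneg_left L1.2

end Crest.Agent.R165
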