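import Crest.Agent.R165.B.Pot2b
import Crest.Agent.R165.B.Pot3

/-! # R165/B2, part 4: sub-mean-value inequality -/

set_option autoImplicit false
noncomputable section
open Classical

namespace Crest.Agent.R165

/-- oscillation on a frame: if `r ≤ |y.1|` go vertically to height `2r+1`, then horizontally; else the other way (`lip_int`) -/
theorem pot_osc {a : Site → ℝ} {C : ℝ} (h : ∀ x α, |a (x + dv α) - a x| ≤ C / (supd x 0 + 1)) {r : ℕ} {y : Site}
    (h1 : r ≤ supd y 0) (h2 : supd y 0 ≤ 2 * r + 1) : |a y - a (2 * r + 1, 2 * r + 1)| ≤ 8 * C := by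
  have hC : 0 ≤ C := by
    have := (abs_nonneg _).trans (h 0 0)
    rwa [supd_self, Nat.cast_zero, zero_add, div_one] at this
  have key : ∀ (x : Site) α, r ≤ supd x 0 → |a (x + dv α) - a x| ≤ C / (r + 1) := fun x α hx =>
    (h x α).trans (by gcongr)
  have fin : (((2 * r + 1 : ℤ) - -(2 * r + 1) : ℤ) : ℝ) * (C / (r + 1)) ≤ 4 * C := by
    push_cast
    rw [← mul_div_assoc, div_le_iff₀ (by positivity)]
    nlinarith [Nat.cast_nonneg (α := ℝ) r]
  have V : ∀ s : ℤ, r ≤ s.natAbs → ∀ k ∈ Finset.Icc (-(2 * r + 1 : ℤ)) (2 * r + 1),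
      |a (s, k) - a (s, 2 * r + 1)| ≤ 4 * C := fun s hs k hk =>
    (lip_int (fun k => a (s, k)) hk (Finset.mem_Icc.2 (by omega)) fun j _ _ => by
      have := key (s, j) 1 (by simp only [supd, Prod.fst_zero, sub_zero]; omega)
      rwa [add_dv1] at this).trans fin
  have H : ∀ s : ℤ, r ≤ s.natAbs → ∀ k ∈ Finset.Icc (-(2 * r + 1 : ℤ)) (2 * r + 1),
      |a (k, s) - a (2 * r + 1, s)| ≤ 4 * C := fun s hs k hk =>
    (lip_int (fun k => a (k, s)) hk (Finset.mem_Icc.2 (by omega)) fun j _ _ => by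
      have := key (j, s) 0 (by simp only [supd, Prod.snd_zero, sub_zero]; omega)
      rwa [add_dv0] at this).trans fin
  obtain ⟨y1, y2⟩ := y
  simp only [supd, Prod.fst_zero, Prod.snd_zero, sub_zero] at h1 h2
  by_cases hy : r ≤ y1.natAbs
  · have e1 := V y1 hy y2 (Finset.mem_Icc.2 (by omega))
    have e2 := H (2 * r + 1) (by omega) y1 (Finset.mem_Icc.2 (by omega))
    linarith [abs_sub_le (a (y1, y2)) (a (y1, 2 * r + 1)) (a (2 * r + 1, 2 * r + 1))]
  · have e1 := H y2 (by omega) y1 (Finset.mem_Icc.2 (by omega))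
    have e2 := V (2 * r + 1) (by omega) y2 (Finset.mem_Icc.2 (by omega))
    linarith [abs_sub_le (a (y1, y2)) (a (2 * r + 1, y2)) (a (2 * r + 1, 2 * r + 1))]

/-- product rule -/
theorem lap_mul (χ ψ : Site → ℝ) (y : Site) : lap (fun z => χ z * ψ z) y =
    χ y * lap ψ y + ψ y * lap χ y + ∑ α : Fin 4, (χ (y + dv α) - χ y) * (ψ (y + dv α) - ψ y) := by
  simp only [lap, Fin.sum_univ_four]
  ring

/-- `φ = χ r * ψ`, `ψ = a (2r+1, 2r+1) + 8 C - a` (`a` the potential kernel): `0 ≤ ψ ≤ 16 C` on the frame of `pot_osc`, `0 ≤ ψ` on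
`box 0 (2r)` by `max_principle` (`a` is subharmonic).  If `supd y 0 < r` then `χ = 1` at `y` and its neighbours; if `supd y 0 > 2r+1` then
`φ = 0` at `y` and its neighbours; in between use `lap_mul`, `lap χ` = minus two second differences (`α, α + 2`, `dv_add_two`). -/
theorem exists_test : ∃ C : ℝ, ∀ r : ℕ, 1 ≤ r → ∃ φ : Site → ℝ, (∀ y, 0 ≤ φ y) ∧ (∀ y, y ∉ box 0 (2 * r) → φ y = 0) ∧
    ∀ y, lap φ y ≤ C / (r : ℝ) ^ 2 - if y = 0 then 1 else 0 := by
  obtain ⟨a, C, ha, -, hd⟩ := exists_potKer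
  obtain ⟨χ, D, hχ⟩ := exists_cutoff
  have hC : 0 ≤ C := by
    have := (abs_nonneg _).trans (hd 0 0)
    rwa [supd_self, Nat.cast_zero, zero_add, div_one] at this
  have hD : 0 ≤ D := by
    have := (abs_nonneg _).trans ((hχ 1 le_rfl).2.2.2.2.1 0 0)
    rwa [Nat.cast_one, div_one] at this
  refine ⟨36 * C * D, fun r hr => ?_⟩
  obtain ⟨h01, h1, h0, -, hd1, hd2⟩ := hχ r hr
  have hr0 : (0 : ℝ) < r := by exact_mod_cast hr
  set M := a (2 * r + 1, 2 * r + 1) + 8 * C with hM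
  have lψ : ∀ y, lap (fun z => M - a z) y = -(if y = 0 then 1 else 0) := fun y => by
    rw [lap_sub, lap_const, ha, zero_sub]
  have hmax : ∀ y ∈ box 0 (2 * r), a y ≤ M := by
    refine max_principle _ a M (fun y _ => by rw [ha]; split_ifs <;> norm_num) fun y hy α hn => ?_
    have e1 := mem_box_supd.1 (add_dv_mem_box' hy α)
    rw [mem_box_supd] at hn
    have := (abs_le.1 (pot_osc hd (r := r) (y := y + dv α) (by omega) e1)).2
    linarith
  refine ⟨fun z => χ r z * (M - a z), fun y => ?_, fun y hy => by simp only [h0 y hy, zero_mul], fun y => ?_⟩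
  · by_cases hy : y ∈ box 0 (2 * r)
    · exact mul_nonneg (h01 y).1 (sub_nonneg.2 (hmax y hy))
    · simp only [h0 y hy, zero_mul, le_refl]
  have hpos : 0 ≤ 36 * C * D / (r : ℝ) ^ 2 := by positivity
  have tri : ∀ α, supd (y + dv α) 0 ≤ supd y 0 + 1 ∧ supd y 0 ≤ supd (y + dv α) 0 + 1 := fun α => by
    have e1 := supd_triangle (y + dv α) y 0
    have e2 := supd_triangle y (y + dv α) 0
    rw [supd_comm y (y + dv α)] at e2
    rw [supd_dv] at e1 e2
    omega
  by_cases c1 : supd y 0 < r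
  · have : lap (fun z => χ r z * (M - a z)) y = lap (fun z => M - a z) y := by
      simp only [lap]
      refine Finset.sum_congr rfl fun α _ => ?_
      rw [h1 y (mem_box_supd.2 c1.le), h1 (y + dv α) (mem_box_supd.2 (by have := (tri α).1; omega)), one_mul, one_mul]
    rw [this, lψ]
    linarith
  have hy0 : y ≠ 0 := by
    rintro rfl
    rw [supd_self] at c1
    omega
  rw [if_neg hy0, sub_zero]
  by_cases c2 : 2 * r + 1 < supd y 0
  · have : lap (fun z => χ r z * (M - a z)) y = 0 := by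
      simp only [lap]
      refine Finset.sum_eq_zero fun α _ => ?_
      rw [h0 y (by rw [mem_box_supd]; omega), h0 (y + dv α) (by rw [mem_box_supd]; have := (tri α).2; omega)]
      ring
    rw [this]
    exact hpos
  rw [lap_mul, lψ, if_neg hy0, neg_zero, mul_zero, zero_add]
  have b1 : |M - a y| ≤ 16 * C := by
    have := abs_le.1 (pot_osc hd (r := r) (y := y) (by omega) (by omega))
    rw [abs_le]
    constructor <;> linarith [this.1, this.2]
  have b2 : |lap (χ r) y| ≤ 2 * (D / (r : ℝ) ^ 2) := by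
    have e0 := hd2 y 0 2
    have e1 := hd2 y 1 3
    have f0 : y + dv 0 + dv 2 = y := by rw [show (2 : Fin 4) = 0 + 2 from rfl, dv_add_two]; simp
    have f1 : y + dv 1 + dv 3 = y := by rw [show (3 : Fin 4) = 1 + 2 from rfl, dv_add_two]; simp
    rw [f0, abs_le] at e0
    rw [f1, abs_le] at e1
    rw [lap, Fin.sum_univ_four, abs_le]
    constructor <;> linarith [e0.1, e0.2, e1.1, e1.2]
  have b3 : ∀ α, (χ r (y + dv α) - χ r y) * (M - a (y + dv α) - (M - a y)) ≤ D / r * (C / r) := fun α => by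
    refine (le_abs_self _).trans ?_
    rw [abs_mul]
    refine mul_le_mul (hd1 y α) ?_ (abs_nonneg _) (by positivity)
    rw [show M - a (y + dv α) - (M - a y) = -(a (y + dv α) - a y) by ring, abs_neg]
    refine (hd y α).trans ?_
    have : (r : ℝ) ≤ supd y 0 + 1 := by exact_mod_cast (by omega : r ≤ supd y 0 + 1)
    gcongr
  have b4 : (M - a y) * lap (χ r) y ≤ 16 * C * (2 * (D / (r : ℝ) ^ 2)) :=
    (le_abs_self _).trans (by rw [abs_mul]; exact mul_le_mul b1 b2 (abs_nonneg _) (by positivity))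
  rw [Fin.sum_univ_four]
  have e : 36 * C * D / (r : ℝ) ^ 2 = 16 * C * (2 * (D / (r : ℝ) ^ 2)) + 4 * (D / r * (C / r)) := by
    field_simp
    ring
  linarith [b3 0, b3 1, b3 2, b3 3]

/-- sub-mean-value inequality.  `R = 1`: one term of the sum.  Else `r = R / 2`, `lap_green` with `y ↦ φ (y - x)`. -/
theorem submean : ∃ C : ℝ, ∀ (u : Site → ℝ) (x : Site) (R : ℕ), 1 ≤ R →
    (∀ y ∈ box x R, 0 ≤ lap u y) → (∀ y, 0 ≤ u y) → u x ≤ C / (R : ℝ) ^ 2 * ∑ y ∈ box x (R + 1), u y := by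
  obtain ⟨C, hC⟩ := exists_test
  refine ⟨9 * |C| + 1, fun u x R hR hu h0 => ?_⟩
  have hS : 0 ≤ ∑ y ∈ box x (R + 1), u y := Finset.sum_nonneg fun y _ => h0 y
  have hR0 : (0 : ℝ) < R := by exact_mod_cast hR
  rcases hR.eq_or_lt with rfl | hR1
  · have := Finset.single_le_sum (f := u) (fun y _ => h0 y) (self_mem_box x (1 + 1))
    simp only [Nat.cast_one, one_pow, div_one]
    nlinarith [abs_nonneg C]
  obtain ⟨φ, p0, pz, pl⟩ := hC (R / 2) (by omega)
  set r := R / 2 with hr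
  have hr0 : (0 : ℝ) < r := by exact_mod_cast (by omega : 0 < r)
  have g := lap_green (fun y => φ (y + -x)) u x R fun y hy => pz _ fun h => hy (by
    rw [mem_box_supd, ← sub_eq_add_neg, supd_sub] at h
    rw [mem_box_supd]
    omega)
  have g1 : 0 ≤ ∑ y ∈ box x R, φ (y + -x) * lap u y := Finset.sum_nonneg fun y hy => mul_nonneg (p0 _) (hu y hy)
  have g2 : ∑ y ∈ box x (R + 1), lap (fun y => φ (y + -x)) y * u y ≤
      ∑ y ∈ box x (R + 1), (C / (r : ℝ) ^ 2 * u y - if y = x then u y else 0) := by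
    refine Finset.sum_le_sum fun y _ => ?_
    rw [lap_shift]
    refine (mul_le_mul_of_nonneg_right (pl _) (h0 y)).trans_eq ?_
    simp only [add_neg_eq_zero]
    split_ifs <;> ring
  rw [Finset.sum_sub_distrib, Finset.sum_ite_eq', if_pos (self_mem_box _ _), ← Finset.mul_sum] at g2
  have g3 : C / (r : ℝ) ^ 2 ≤ (9 * |C| + 1) / (R : ℝ) ^ 2 := by
    have h3 : (R : ℝ) ≤ 3 * r := by exact_mod_cast (by omega : R ≤ 3 * r)
    have h4 : (R : ℝ) ^ 2 ≤ 9 * r ^ 2 := by nlinarith
    rw [div_le_div_iff₀ (by positivity) (by positivity)]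
    nlinarith [le_abs_self C, abs_nonneg C, sq_nonneg (r : ℝ), sq_nonneg (R : ℝ)]
  nlinarith [mul_le_mul_of_nonneg_right g3 hS]

end Crest.Agent.R165
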